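import Mathlib
import Crest.Prelude.Def_MultiMarginal

set_option autoImplicit false

open MeasureTheory Set Filter
open scoped ENNReal NNReal

namespace Crest.Agent.R130

open Crest.AnalysisR.OT

/-- Cluster labels: the central cluster and four outer clusters (family `k`, side `b`). -/
inductive Lab
  | z : Lab
  | o (k b : Bool) : Lab
  deriving DecidableEq, Fintype

instance : MeasurableSpace Lab := ⊤
instance : DiscreteMeasurableSpace Lab := ⟨fun _ => trivial⟩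
instance : Nonempty Lab := ⟨Lab.z⟩

section
variable {Ω : Type*} [MeasurableSpace Ω]

/-- The parameter measure on labels times the parameter space. -/
noncomputable def parMeas (ν : Measure Ω) : Measure (Lab × Ω) :=
  (6 : ℝ≥0∞)⁻¹ • ∑ k : Bool, (ν.map (Prod.mk Lab.z) + ν.map (Prod.mk (Lab.o k false)) +
    ν.map (Prod.mk (Lab.o k true)))

theorem lintegral_parMeas (ν : Measure Ω) {F : Lab × Ω → ℝ≥0∞} (hF : Measurable F) :
    ∫⁻ y, F y ∂parMeas ν = (6 : ℝ≥0∞)⁻¹ * ∑ k : Bool, (∫⁻ x, F (Lab.z, x) ∂ν +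
      ∫⁻ x, F (Lab.o k false, x) ∂ν + ∫⁻ x, F (Lab.o k true, x) ∂ν) := by
  unfold parMeas
  rw [lintegral_smul_measure, lintegral_finsetSum_measure]
  simp only [lintegral_add_measure, lintegral_map hF measurable_prodMk_left, smul_eq_mul]

theorem map_parMeas {β : Type*} [MeasurableSpace β] (ν : Measure Ω) {F : Lab × Ω → β}
    (hF : Measurable F) :
    (parMeas ν).map F = (6 : ℝ≥0∞)⁻¹ • ∑ k : Bool, (ν.map (fun x => F (Lab.z, x)) +
      ν.map (fun x => F (Lab.o k false, x)) + ν.map (fun x => F (Lab.o k true, x))) := by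
  unfold parMeas
  rw [Measure.map_smul]
  simp only [Fintype.sum_bool, Measure.map_add _ _ hF,
    Measure.map_map hF measurable_prodMk_left]
  rfl

/-- The fair splitting measure on `Bool × Ω`. -/
noncomputable def halfMeas (ν : Measure Ω) : Measure (Bool × Ω) :=
  (2 : ℝ≥0∞)⁻¹ • ∑ k : Bool, ν.map (Prod.mk k)

theorem map_halfMeas {β : Type*} [MeasurableSpace β] (ν : Measure Ω) {F : Bool × Ω → β}
    (hF : Measurable F) :
    (halfMeas ν).map F = (2 : ℝ≥0∞)⁻¹ • ∑ k : Bool, ν.map (fun x => F (k, x)) := by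
  unfold halfMeas
  rw [Measure.map_smul]
  simp only [Fintype.sum_bool, Measure.map_add _ _ hF,
    Measure.map_map hF measurable_prodMk_left]
  rfl

theorem half_add_half {β : Type*} [MeasurableSpace β] (a : Measure β) :
    (2 : ℝ≥0∞)⁻¹ • a + (2 : ℝ≥0∞)⁻¹ • a = a := by
  rw [← add_smul, ENNReal.inv_two_add_inv_two, one_smul]

theorem halfMeas_snd (ν : Measure Ω) : (halfMeas ν).map Prod.snd = ν := by
  rw [map_halfMeas ν measurable_snd]
  simp only [Fintype.sum_bool, Measure.map_id', smul_add]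
  exact half_add_half ν

/-- Second-particle map in parameter coordinates. -/
def tau2 (S : Ω → Bool × Ω) : Lab × Ω → Lab × Ω
  | (Lab.z, x) => (Lab.o (S x).1 false, (S x).2)
  | (Lab.o k false, x) => (Lab.o k true, x)
  | (Lab.o _ true, x) => (Lab.z, x)

/-- Third-particle map in parameter coordinates. -/
def tau3 (S : Ω → Bool × Ω) : Lab × Ω → Lab × Ω
  | (Lab.z, x) => (Lab.o (S x).1 true, (S x).2)
  | (Lab.o _ false, x) => (Lab.z, x)
  | (Lab.o k true, x) => (Lab.o k false, x)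

theorem measurable_lift (b : Bool) :
    Measurable (fun q : Bool × Ω => ((Lab.o q.1 b, q.2) : Lab × Ω)) :=
  ((measurable_of_countable (fun k : Bool => Lab.o k b)).comp measurable_fst).prodMk measurable_snd

theorem measurable_tau2 {S : Ω → Bool × Ω} (hS : Measurable S) : Measurable (tau2 S) := by
  refine measurable_from_prod_countable_right fun i => ?_
  rcases i with _ | ⟨k, _ | _⟩
  · exact (measurable_lift false).comp hS
  · exact measurable_prodMk_left
  · exact measurable_prodMk_left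

theorem measurable_tau3 {S : Ω → Bool × Ω} (hS : Measurable S) : Measurable (tau3 S) := by
  refine measurable_from_prod_countable_right fun i => ?_
  rcases i with _ | ⟨k, _ | _⟩
  · exact (measurable_lift true).comp hS
  · exact measurable_prodMk_left
  · exact measurable_prodMk_left

theorem map_lift {ν : Measure Ω} {S : Ω → Bool × Ω} (hS : Measurable S)
    (hm : ν.map S = halfMeas ν) (b : Bool) :
    ν.map (fun x => ((Lab.o (S x).1 b, (S x).2) : Lab × Ω)) =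
      (2 : ℝ≥0∞)⁻¹ • ∑ k : Bool, ν.map (Prod.mk (Lab.o k b)) := by
  have := map_halfMeas ν (measurable_lift (Ω := Ω) b)
  rw [← hm, Measure.map_map (measurable_lift b) hS] at this
  exact this

theorem map_tau2 {ν : Measure Ω} {S : Ω → Bool × Ω} (hS : Measurable S)
    (hm : ν.map S = halfMeas ν) : (parMeas ν).map (tau2 S) = parMeas ν := by
  rw [map_parMeas ν (measurable_tau2 hS)]
  unfold parMeas
  congr 1
  simp only [tau2, map_lift hS hm, Fintype.sum_bool]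
  have := half_add_half (ν.map (Prod.mk (Lab.o true false)) + ν.map (Prod.mk (Lab.o false false)))
  generalize (2 : ℝ≥0∞)⁻¹ • (ν.map (Prod.mk (Lab.o true false)) +
    ν.map (Prod.mk (Lab.o false false))) = a at this ⊢
  calc _ = (a + a) + (ν.map (Prod.mk (Lab.o true true)) + ν.map (Prod.mk Lab.z) +
      ν.map (Prod.mk (Lab.o false true)) + ν.map (Prod.mk Lab.z)) := by abel
    _ = _ := by rw [this]; abel

theorem map_tau3 {ν : Measure Ω} {S : Ω → Bool × Ω} (hS : Measurable S)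
    (hm : ν.map S = halfMeas ν) : (parMeas ν).map (tau3 S) = parMeas ν := by
  rw [map_parMeas ν (measurable_tau3 hS)]
  unfold parMeas
  congr 1
  simp only [tau3, map_lift hS hm, Fintype.sum_bool]
  have := half_add_half (ν.map (Prod.mk (Lab.o true true)) + ν.map (Prod.mk (Lab.o false true)))
  generalize (2 : ℝ≥0∞)⁻¹ • (ν.map (Prod.mk (Lab.o true true)) +
    ν.map (Prod.mk (Lab.o false true))) = a at this ⊢
  calc _ = (a + a) + (ν.map (Prod.mk (Lab.o true false)) + ν.map (Prod.mk Lab.z) +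
      ν.map (Prod.mk (Lab.o false false)) + ν.map (Prod.mk Lab.z)) := by abel
    _ = _ := by rw [this]; abel

variable {E : Type*} [MeasurableSpace E]

/-- The symmetric plan carried by the contact set. -/
noncomputable def plan0 (ν : Measure Ω) (Φ : Lab × Ω → E) : Measure (E × E × E) :=
  (6 : ℝ≥0∞)⁻¹ • ∑ k : Bool,
    (ν.map (fun x => (Φ (Lab.z, x), Φ (Lab.o k false, x), Φ (Lab.o k true, x))) +
     ν.map (fun x => (Φ (Lab.o k false, x), Φ (Lab.o k true, x), Φ (Lab.z, x))) +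
     ν.map (fun x => (Φ (Lab.o k true, x), Φ (Lab.z, x), Φ (Lab.o k false, x))))

theorem measurable_triple {Φ : Lab × Ω → E} (hΦ : Measurable Φ) (i j l : Lab) :
    Measurable (fun x => (Φ (i, x), Φ (j, x), Φ (l, x))) :=
  (hΦ.comp measurable_prodMk_left).prodMk
    ((hΦ.comp measurable_prodMk_left).prodMk (hΦ.comp measurable_prodMk_left))

theorem map_plan0 {β : Type*} [MeasurableSpace β] (ν : Measure Ω) {Φ : Lab × Ω → E}
    (hΦ : Measurable Φ) {F : E × E × E → β} (hF : Measurable F) :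
    (plan0 ν Φ).map F = (6 : ℝ≥0∞)⁻¹ • ∑ k : Bool,
    (ν.map (fun x => F (Φ (Lab.z, x), Φ (Lab.o k false, x), Φ (Lab.o k true, x))) +
     ν.map (fun x => F (Φ (Lab.o k false, x), Φ (Lab.o k true, x), Φ (Lab.z, x))) +
     ν.map (fun x => F (Φ (Lab.o k true, x), Φ (Lab.z, x), Φ (Lab.o k false, x)))) := by
  unfold plan0
  rw [Measure.map_smul]
  simp only [Fintype.sum_bool, Measure.map_add _ _ hF,
    Measure.map_map hF (measurable_triple hΦ _ _ _)]
  rfl

theorem lintegral_plan0 (ν : Measure Ω) {Φ : Lab × Ω → E}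
    (hΦ : Measurable Φ) {F : E × E × E → ℝ≥0∞} (hF : Measurable F) :
    ∫⁻ p, F p ∂plan0 ν Φ = (6 : ℝ≥0∞)⁻¹ * ∑ k : Bool,
    (∫⁻ x, F (Φ (Lab.z, x), Φ (Lab.o k false, x), Φ (Lab.o k true, x)) ∂ν +
     ∫⁻ x, F (Φ (Lab.o k false, x), Φ (Lab.o k true, x), Φ (Lab.z, x)) ∂ν +
     ∫⁻ x, F (Φ (Lab.o k true, x), Φ (Lab.z, x), Φ (Lab.o k false, x)) ∂ν) := by
  unfold plan0
  rw [lintegral_smul_measure, lintegral_finsetSum_measure]
  simp only [lintegral_add_measure, lintegral_map hF (measurable_triple hΦ _ _ _), smul_eq_mul]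

theorem isCoupling_plan0 (ν : Measure Ω) {Φ : Lab × Ω → E} (hΦ : Measurable Φ) :
    IsCoupling₃ ((parMeas ν).map Φ) (plan0 ν Φ) := by
  rw [map_parMeas ν hΦ]
  refine ⟨?_, ?_, ?_⟩
  · rw [map_plan0 ν hΦ measurable_fst]
  · rw [map_plan0 ν hΦ (F := fun p => p.2.1) measurable_snd.fst]
    congr 1
    refine Finset.sum_congr rfl fun k _ => ?_
    abel
  · rw [map_plan0 ν hΦ (F := fun p => p.2.2) measurable_snd.snd]
    congr 1
    refine Finset.sum_congr rfl fun k _ => ?_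
    abel

theorem lintegral_coupling {μ : Measure E} {π : Measure (E × E × E)} (hπ : IsCoupling₃ μ π)
    {u : E → ℝ≥0∞} (hu : Measurable u) :
    ∫⁻ p, (u p.1 + u p.2.1 + u p.2.2) ∂π = ∫⁻ x, u x ∂μ + ∫⁻ x, u x ∂μ + ∫⁻ x, u x ∂μ := by
  obtain ⟨h1, h2, h3⟩ := hπ
  rw [lintegral_add_left (by fun_prop), lintegral_add_left (by fun_prop)]
  congr 1
  · congr 1
    · rw [← h1, lintegral_map hu measurable_fst]
    · rw [← h2, lintegral_map hu measurable_snd.fst]
  · rw [← h3, lintegral_map hu measurable_snd.snd]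

theorem ae_coupling {μ : Measure E} {π : Measure (E × E × E)} (hπ : IsCoupling₃ μ π)
    {P : E → Prop} (hP : ∀ᵐ x ∂μ, P x) : ∀ᵐ p ∂π, P p.1 ∧ P p.2.1 ∧ P p.2.2 := by
  obtain ⟨h1, h2, h3⟩ := hπ
  have a1 : ∀ᵐ p ∂π, P p.1 := ae_of_ae_map measurable_fst.aemeasurable (h1 ▸ hP)
  have a2 : ∀ᵐ p ∂π, P p.2.1 :=
    ae_of_ae_map (f := fun p : E × E × E => p.2.1) measurable_snd.fst.aemeasurable (h2 ▸ hP)
  have a3 : ∀ᵐ p ∂π, P p.2.2 :=
    ae_of_ae_map (f := fun p : E × E × E => p.2.2) measurable_snd.snd.aemeasurable (h3 ▸ hP)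
  filter_upwards [a1, a2, a3] with p b1 b2 b3 using ⟨b1, b2, b3⟩

theorem abstract_main [Nonempty Ω] (ν : Measure Ω) [IsProbabilityMeasure ν]
    {Φ : Lab × Ω → E} (hΦ : MeasurableEmbedding Φ)
    {c : E × E × E → ℝ≥0∞} (hc : Measurable c) (hcyc : ∀ x y w, c (x, y, w) = c (y, w, x))
    {v : Lab × Ω → ℝ≥0∞} (hv : Measurable v) (hvfin : ∫⁻ y, v y ∂parMeas ν ≠ ⊤)
    (H1 : ∀ y₁ y₂ y₃, v y₁ + v y₂ + v y₃ ≤ c (Φ y₁, Φ y₂, Φ y₃))
    (H1' : ∀ x y₂ y₃, c (Φ (Lab.z, x), Φ y₂, Φ y₃) ≤ v (Lab.z, x) + v y₂ + v y₃ →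
      y₂.1 ≠ Lab.z ∧ y₂.2 = x)
    (H2 : ∀ k x, c (Φ (Lab.z, x), Φ (Lab.o k false, x), Φ (Lab.o k true, x)) =
      v (Lab.z, x) + v (Lab.o k false, x) + v (Lab.o k true, x))
    (Hsplit : ∀ δ : ℝ≥0, 0 < δ → ∃ S : Ω → Bool × Ω, Measurable S ∧ ν.map S = halfMeas ν ∧
      ∀ᵐ x ∂ν, c (Φ (Lab.z, x), Φ (Lab.o (S x).1 false, (S x).2), Φ (Lab.o (S x).1 true, (S x).2))
        ≤ c (Φ (Lab.z, (S x).2), Φ (Lab.o (S x).1 false, (S x).2),
            Φ (Lab.o (S x).1 true, (S x).2)) + δ)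
    (μ : Measure E) (hμ : μ = (parMeas ν).map Φ) :
    ∃ π₀ : Measure (E × E × E), IsCoupling₃ μ π₀ ∧ ∫⁻ p, c p ∂π₀ < ⊤ ∧
      (∀ π : Measure (E × E × E), IsCoupling₃ μ π → ∫⁻ p, c p ∂π₀ ≤ ∫⁻ p, c p ∂π) ∧
      (∀ T₂ T₃ : E → E, Measurable T₂ → Measurable T₃ → μ.map T₂ = μ → μ.map T₃ = μ →
        ∫⁻ p, c p ∂π₀ < ∫⁻ x, c (x, T₂ x, T₃ x) ∂μ) ∧
      (∀ ε : ℝ≥0∞, 0 < ε → ∃ T₂ T₃ : E → E, Measurable T₂ ∧ Measurable T₃ ∧
        μ.map T₂ = μ ∧ μ.map T₃ = μ ∧ ∫⁻ x, c (x, T₂ x, T₃ x) ∂μ < ∫⁻ p, c p ∂π₀ + ε) := by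
  have hΦm := hΦ.measurable
  set Ψ : E → Lab × Ω := hΦ.invFun with hΨdef
  have hΨ : Measurable Ψ := hΦ.measurable_invFun
  have hΨΦ : ∀ y, Ψ (Φ y) = y := hΦ.leftInverse_invFun
  set u : E → ℝ≥0∞ := fun x => v (Ψ x) with hudef
  have hu : Measurable u := hv.comp hΨ
  have huΦ : ∀ y, u (Φ y) = v y := fun y => by simp [hudef, hΨΦ]
  have hD : Measurable (fun p : E × E × E => u p.1 + u p.2.1 + u p.2.2) := by fun_prop
  have hcoup : IsCoupling₃ μ (plan0 ν Φ) := hμ ▸ isCoupling_plan0 ν hΦm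
  have hufin : ∫⁻ x, u x ∂μ ≠ ⊤ := by
    rw [hμ, lintegral_map hu hΦm]
    simpa only [huΦ] using hvfin
  have hcost : ∫⁻ p, c p ∂plan0 ν Φ = ∫⁻ x, u x ∂μ + ∫⁻ x, u x ∂μ + ∫⁻ x, u x ∂μ := by
    rw [← lintegral_coupling hcoup hu, lintegral_plan0 ν hΦm hc, lintegral_plan0 ν hΦm hD]
    congr 1
    refine Finset.sum_congr rfl fun k _ => ?_
    simp only [huΦ]
    congr 1
    · congr 1
      · exact lintegral_congr fun x => H2 k x
      · refine lintegral_congr fun x => ?_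
        rw [← hcyc, H2]; ring
    · refine lintegral_congr fun x => ?_
      rw [hcyc, H2]; ring
  have hfin : ∫⁻ p, c p ∂plan0 ν Φ ≠ ⊤ := by
    rw [hcost]
    exact ENNReal.add_ne_top.2 ⟨ENNReal.add_ne_top.2 ⟨hufin, hufin⟩, hufin⟩
  have hrange : ∀ᵐ x ∂μ, x ∈ range Φ := by
    rw [hμ]
    exact (ae_map_iff hΦm.aemeasurable hΦ.measurableSet_range).2
      (Eventually.of_forall fun y => mem_range_self y)
  have hle : ∀ π : Measure (E × E × E), IsCoupling₃ μ π →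
      (fun p : E × E × E => u p.1 + u p.2.1 + u p.2.2) ≤ᵐ[π] c := by
    intro π hπ
    filter_upwards [ae_coupling hπ hrange] with p hp
    obtain ⟨⟨y₁, h1⟩, ⟨y₂, h2⟩, ⟨y₃, h3⟩⟩ := hp
    have := H1 y₁ y₂ y₃
    rw [← huΦ, ← huΦ, ← huΦ, h1, h2, h3] at this
    exact this
  refine ⟨plan0 ν Φ, hcoup, hfin.lt_top, fun π hπ => ?_, fun T₂ T₃ hT₂ hT₃ hm₂ hm₃ => ?_,
    fun ε hε => ?_⟩
  · rw [hcost, ← lintegral_coupling hπ hu]
    exact lintegral_mono_ae (hle π hπ)
  · by_contra hnot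
    rw [not_lt] at hnot
    have hG : Measurable (fun x => (x, T₂ x, T₃ x)) := measurable_id.prodMk (hT₂.prodMk hT₃)
    have hπ : IsCoupling₃ μ (μ.map (fun x => (x, T₂ x, T₃ x))) := by
      refine ⟨?_, ?_, ?_⟩
      · rw [Measure.map_map measurable_fst hG]; exact Measure.map_id
      · rw [Measure.map_map measurable_snd.fst hG]; exact hm₂
      · rw [Measure.map_map measurable_snd.snd hG]; exact hm₃
    have heq := ae_eq_of_ae_le_of_lintegral_le (hle _ hπ)
      (by rw [lintegral_coupling hπ hu, ← hcost]; exact hfin) hc.aemeasurable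
      (by rw [lintegral_coupling hπ hu, ← hcost, lintegral_map hc hG]; exact hnot)
    have h1 := ae_of_ae_map hG.aemeasurable (heq.and (ae_coupling hπ hrange))
    -- pull back to the central cluster
    have hz : Measurable (fun x : Ω => Φ (Lab.z, x)) := hΦm.comp measurable_prodMk_left
    have hdom : (3 : ℝ≥0∞)⁻¹ • ν.map (fun x => Φ (Lab.z, x)) ≤ μ := by
      rw [hμ, map_parMeas ν hΦm]
      intro s
      simp only [Fintype.sum_bool, Measure.smul_apply, Measure.add_apply, smul_eq_mul]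
      have h36 : (3 : ℝ≥0∞)⁻¹ = 6⁻¹ * 2 := by
        rw [show (6 : ℝ≥0∞) = 3 * 2 by norm_num, ENNReal.mul_inv (by simp) (by simp), mul_assoc,
          ENNReal.inv_mul_cancel (by simp) (by simp), mul_one]
      rw [h36, mul_assoc, two_mul]
      gcongr
      · exact le_self_add.trans le_self_add
      · exact le_self_add.trans le_self_add
    have h2 := (Measure.ae_ennreal_smul_measure_iff (c := (3 : ℝ≥0∞)⁻¹) (by simp)).1
      (h1.filter_mono (ae_mono hdom))
    have h3 := ae_of_ae_map hz.aemeasurable h2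
    have h4 : ∀ᵐ x ∂ν, (Ψ (T₂ (Φ (Lab.z, x)))).1 ≠ Lab.z ∧ (Ψ (T₂ (Φ (Lab.z, x)))).2 = x := by
      filter_upwards [h3] with x hx
      obtain ⟨hx, -, ⟨y₂, h2⟩, ⟨y₃, h3⟩⟩ := hx
      rw [← h2, hΨΦ]
      refine H1' x y₂ y₃ ?_
      rw [← h2, ← h3, huΦ, huΦ, huΦ] at hx
      exact hx.ge
    have h5 : ∀ k b : Bool, ν {x | (Ψ (T₂ (Φ (Lab.z, x)))).1 = Lab.o k b} = 0 := by
      intro k b
      set A : Set Ω := {x | (Ψ (T₂ (Φ (Lab.z, x)))).1 = Lab.o k b} with hA
      have hAm : MeasurableSet A :=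
        (hΨ.comp (hT₂.comp hz)).fst (measurableSet_singleton (Lab.o k b))
      have hB : MeasurableSet (Ψ ⁻¹' ({Lab.o k b} ×ˢ A)) :=
        hΨ ((measurableSet_singleton _).prod hAm)
      have e1 : μ (Ψ ⁻¹' ({Lab.o k b} ×ˢ A)) = 6⁻¹ * ν A := by
        rw [hμ, map_parMeas ν hΦm]
        have hpre : ∀ i, ν.map (fun x => Φ (i, x)) (Ψ ⁻¹' ({Lab.o k b} ×ˢ A)) =
            if i = Lab.o k b then ν A else 0 := by
          intro i
          rw [Measure.map_apply (f := fun x => Φ (i, x)) (hΦm.comp measurable_prodMk_left) hB]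
          split_ifs with h
          · congr 1; ext x; simp [hΨΦ, h]
          · convert measure_empty (μ := ν); ext x; simp [hΨΦ, h]
        simp only [Fintype.sum_bool, Measure.smul_apply, Measure.add_apply, smul_eq_mul, hpre]
        cases k <;> cases b <;> simp
      have e2 : 3⁻¹ * ν A ≤ μ (T₂ ⁻¹' (Ψ ⁻¹' ({Lab.o k b} ×ˢ A))) := by
        refine le_trans ?_ (hdom _)
        rw [Measure.smul_apply, Measure.map_apply hz (hT₂ hB), smul_eq_mul]
        refine mul_le_mul_right (measure_mono_ae (μ := ν) ?_) _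
        filter_upwards [h4] with x hx hxA
        exact ⟨hxA, by rw [hx.2]; exact hxA⟩
      rw [← Measure.map_apply hT₂ hB, hm₂, e1] at e2
      by_contra hne
      have hlt : (6 : ℝ≥0∞)⁻¹ * ν A < 3⁻¹ * ν A :=
        ENNReal.mul_lt_mul_left hne (measure_ne_top _ _) (ENNReal.inv_lt_inv.2 (by norm_num))
      exact absurd e2 (not_le.2 hlt)
    have h6 : ∀ᵐ x ∂ν, ∀ k b : Bool, (Ψ (T₂ (Φ (Lab.z, x)))).1 ≠ Lab.o k b := by
      simp only [ae_all_iff]
      intro k b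
      exact measure_eq_zero_iff_ae_notMem.1 (h5 k b)
    obtain ⟨x, hx1, hx2⟩ := (h4.and h6).exists
    rcases hi : (Ψ (T₂ (Φ (Lab.z, x)))).1 with _ | ⟨k, b⟩
    · exact hx1.1 hi
    · exact hx2 k b hi
  · obtain ⟨δ, hδ0, hδε⟩ := ENNReal.lt_iff_exists_nnreal_btwn.1 hε
    obtain ⟨S, hS, hSm, hSc⟩ := Hsplit δ (by exact_mod_cast hδ0)
    have hτ₂ := measurable_tau2 hS
    have hτ₃ := measurable_tau3 hS
    have hT₂ : Measurable (Φ ∘ tau2 S ∘ Ψ) := hΦm.comp (hτ₂.comp hΨ)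
    have hT₃ : Measurable (Φ ∘ tau3 S ∘ Ψ) := hΦm.comp (hτ₃.comp hΨ)
    refine ⟨Φ ∘ tau2 S ∘ Ψ, Φ ∘ tau3 S ∘ Ψ, hT₂, hT₃, ?_, ?_, ?_⟩
    · rw [hμ, Measure.map_map hT₂ hΦm]
      conv_rhs => rw [← map_tau2 hS hSm, Measure.map_map hΦm hτ₂]
      congr 1; ext y; simp [hΨΦ]
    · rw [hμ, Measure.map_map hT₃ hΦm]
      conv_rhs => rw [← map_tau3 hS hSm, Measure.map_map hΦm hτ₃]
      congr 1; ext y; simp [hΨΦ]
    · have hG : Measurable (fun x => c (x, (Φ ∘ tau2 S ∘ Ψ) x, (Φ ∘ tau3 S ∘ Ψ) x)) :=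
        hc.comp (measurable_id.prodMk (hT₂.prodMk hT₃))
      refine lt_of_le_of_lt ?_ (ENNReal.add_lt_add_left hfin hδε)
      rw [hμ, lintegral_map hG hΦm, lintegral_parMeas ν
        (F := fun a => c (Φ a, (Φ ∘ tau2 S ∘ Ψ) (Φ a), (Φ ∘ tau3 S ∘ Ψ) (Φ a))) (hG.comp hΦm),
        lintegral_plan0 ν hΦm hc]
      simp only [Function.comp_apply, hΨΦ, tau2, tau3]
      set g : Bool × Ω → ℝ≥0∞ := fun q =>
        c (Φ (Lab.z, q.2), Φ (Lab.o q.1 false, q.2), Φ (Lab.o q.1 true, q.2)) with hg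
      have hgm : Measurable g :=
        hc.comp ((hΦm.comp (measurable_prodMk_left.comp measurable_snd)).prodMk
          ((hΦm.comp (measurable_lift false)).prodMk (hΦm.comp (measurable_lift true))))
      have e1 : ∫⁻ x, c (Φ (Lab.z, x), Φ (Lab.o (S x).1 false, (S x).2),
          Φ (Lab.o (S x).1 true, (S x).2)) ∂ν ≤
          2⁻¹ * (∫⁻ x, g (true, x) ∂ν + ∫⁻ x, g (false, x) ∂ν) + δ := by
        refine (lintegral_mono_ae hSc).trans ?_
        rw [lintegral_add_right _ measurable_const, lintegral_const, measure_univ, mul_one]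
        gcongr
        have : ∫⁻ x, g (S x) ∂ν = ∫⁻ q, g q ∂halfMeas ν := by
          rw [← hSm, lintegral_map hgm hS]
        refine this.le.trans ?_
        unfold halfMeas
        rw [lintegral_smul_measure, lintegral_finsetSum_measure]
        simp only [lintegral_map hgm measurable_prodMk_left, smul_eq_mul, Fintype.sum_bool]
        exact le_rfl
      simp only [Fintype.sum_bool]
      set a := ∫⁻ x, c (Φ (Lab.z, x), Φ (Lab.o (S x).1 false, (S x).2),
          Φ (Lab.o (S x).1 true, (S x).2)) ∂ν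
      have e2 : a + a ≤ ∫⁻ x, g (true, x) ∂ν + ∫⁻ x, g (false, x) ∂ν + 6 * δ := by
        refine (add_le_add e1 e1).trans ?_
        have : ∀ b : ℝ≥0∞, 2⁻¹ * b + δ + (2⁻¹ * b + δ) = b + 2 * δ := fun b => by
          calc 2⁻¹ * b + δ + (2⁻¹ * b + δ) = (2⁻¹ + 2⁻¹) * b + 2 * δ := by ring
            _ = b + 2 * δ := by rw [ENNReal.inv_two_add_inv_two, one_mul]
        rw [this]
        gcongr; norm_num
      have e3 : (δ : ℝ≥0∞) = 6⁻¹ * (6 * δ) := by
        rw [← mul_assoc, ENNReal.inv_mul_cancel (by simp) (by simp), one_mul]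
      rw [e3, ← mul_add]
      refine mul_le_mul_right ?_ _
      simp only [hg] at e2
      generalize ∫⁻ x, c (Φ (Lab.o true false, x), Φ (Lab.o true true, x), Φ (Lab.z, x)) ∂ν = b1
      generalize ∫⁻ x, c (Φ (Lab.o true true, x), Φ (Lab.z, x), Φ (Lab.o true false, x)) ∂ν = b2
      generalize ∫⁻ x, c (Φ (Lab.o false false, x), Φ (Lab.o false true, x), Φ (Lab.z, x)) ∂ν = b3
      generalize ∫⁻ x, c (Φ (Lab.o false true, x), Φ (Lab.z, x), Φ (Lab.o false false, x)) ∂ν = b4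
      calc a + b1 + b2 + (a + b3 + b4) = (a + a) + (b1 + b2 + b3 + b4) := by ring
        _ ≤ _ + (b1 + b2 + b3 + b4) := add_le_add e2 le_rfl
        _ = _ := by ring

end

end Crest.Agent.R130
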