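import Mathlib

set_option autoImplicit false

open MeasureTheory Set Filter Topology Function
open scoped ENNReal NNReal ContDiff

namespace Crest.Agent.R130

variable {E : Type*} [NormedAddCommGroup E] [NormedSpace ℝ E] [FiniteDimensional ℝ E]

theorem contDiff_det {n : WithTop ℕ∞} : ContDiff ℝ n (fun A : E →L[ℝ] E => A.det) := by
  classical
  let b := Module.finBasis ℝ E
  have : (fun A : E →L[ℝ] E => A.det) = fun A : E →L[ℝ] E =>
      ∑ σ : Equiv.Perm (Fin (Module.finrank ℝ E)), ((Equiv.Perm.sign σ : ℤ) : ℝ) *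
        ∏ i, (LinearMap.toContinuousLinearMap (b.coord (σ i))) (A (b i)) := by
    ext A
    rw [ContinuousLinearMap.det, ← LinearMap.det_toMatrix b, Matrix.det_apply']
    simp [LinearMap.toMatrix_apply]
  rw [this]
  refine ContDiff.sum fun σ _ => contDiff_const.mul (contDiff_prod fun i _ => ?_)
  exact (LinearMap.toContinuousLinearMap (b.coord (σ i))).contDiff.comp
    (ContinuousLinearMap.apply ℝ E (b i)).contDiff

theorem det_symm_ne_zero (φ : OpenPartialHomeomorph E E) (hφ : ContDiffOn ℝ ∞ φ φ.source)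
    (hψ : ContDiffOn ℝ ∞ φ.symm φ.target) {x : E} (hx : x ∈ φ.target) :
    (fderiv ℝ φ.symm x).det ≠ 0 := by
  have h1 : DifferentiableAt ℝ φ.symm x :=
    (hψ.contDiffAt (φ.open_target.mem_nhds hx)).differentiableAt (by simp)
  have h2 : DifferentiableAt ℝ φ (φ.symm x) :=
    (hφ.contDiffAt (φ.open_source.mem_nhds (φ.map_target hx))).differentiableAt (by simp)
  have h3 := h2.hasFDerivAt.comp x h1.hasFDerivAt
  have h4 : HasFDerivAt (φ ∘ φ.symm) (ContinuousLinearMap.id ℝ E) x := by
    refine (hasFDerivAt_id x).congr_of_eventuallyEq ?_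
    filter_upwards [φ.open_target.mem_nhds hx] with y hy
    exact φ.right_inv hy
  have h5 := h3.unique h4
  intro h0
  have h6 : ((fderiv ℝ φ (φ.symm x)).comp (fderiv ℝ φ.symm x)).det = 1 := by
    rw [h5]; simp [ContinuousLinearMap.det]
  rw [ContinuousLinearMap.det, ContinuousLinearMap.toLinearMap_comp, LinearMap.det_comp] at h6
  rw [ContinuousLinearMap.det] at h0
  rw [h0, mul_zero] at h6
  exact zero_ne_one h6

variable [MeasurableSpace E] [BorelSpace E]

theorem exists_density (μ : Measure E) [μ.IsAddHaarMeasure]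
    (φ : OpenPartialHomeomorph E E) (hφ : ContDiffOn ℝ ∞ φ φ.source)
    (hψ : ContDiffOn ℝ ∞ φ.symm φ.target) {K : Set E} (hK : IsCompact K) (hKs : K ⊆ φ.source)
    {f : E → ℝ} (hf : ContDiff ℝ ∞ f) (hf0 : ∀ x, 0 ≤ f x) (hfK : support f ⊆ K) :
    ∃ g : E → ℝ, ContDiff ℝ ∞ g ∧ (∀ x, 0 ≤ g x) ∧ support g ⊆ φ '' K ∧
      μ.withDensity (fun x => ENNReal.ofReal (g x ^ 2)) =
        ((μ.withDensity (fun x => ENNReal.ofReal (f x ^ 2))).comap (Subtype.val : K → E)).map
          (fun z : K => φ z) := by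
  set g : E → ℝ := φ.target.indicator
    (fun x => f (φ.symm x) * Real.sqrt |(fderiv ℝ φ.symm x).det|) with hg
  have hsupp : support g ⊆ φ '' K := by
    intro x hx
    by_cases hxt : x ∈ φ.target
    · rw [mem_support, hg, indicator_of_mem hxt] at hx
      exact ⟨φ.symm x, hfK (left_ne_zero_of_mul hx), φ.right_inv hxt⟩
    · exact absurd (indicator_of_notMem hxt _) hx
  have hcK : IsCompact (φ '' K) := hK.image_of_continuousOn (φ.continuousOn.mono hKs)
  have hKt : φ '' K ⊆ φ.target := by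
    rintro _ ⟨z, hz, rfl⟩; exact φ.map_source (hKs hz)
  have hsmooth : ContDiff ℝ ∞ g := by
    rw [contDiff_iff_contDiffAt]
    intro x
    by_cases hxt : x ∈ φ.target
    · have hn := φ.open_target.mem_nhds hxt
      have h1 : ContDiffAt ℝ ∞ (fun x => f (φ.symm x)) x :=
        hf.contDiffAt.comp x (hψ.contDiffAt hn)
      have h2 : ContDiffAt ℝ ∞ (fderiv ℝ φ.symm) x :=
        (hψ.fderiv_of_isOpen φ.open_target (by simp)).contDiffAt hn
      have h3 : ContDiffAt ℝ ∞ (fun x => (fderiv ℝ φ.symm x).det) x :=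
        contDiff_det.contDiffAt.comp x h2
      have h0 := det_symm_ne_zero φ hφ hψ hxt
      have h4 := (h3.abs h0).sqrt (abs_ne_zero.2 h0)
      refine (h1.mul h4).congr_of_eventuallyEq ?_
      filter_upwards [hn] with y hy
      rw [hg, indicator_of_mem hy]
    · have hn : (φ '' K)ᶜ ∈ 𝓝 x := hcK.isClosed.isOpen_compl.mem_nhds fun h => hxt (hKt h)
      refine (contDiffAt_const (c := (0 : ℝ))).congr_of_eventuallyEq ?_
      filter_upwards [hn] with y hy
      by_contra hne
      exact hy (hsupp hne)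
  refine ⟨g, hsmooth, fun x => indicator_nonneg (fun y _ => mul_nonneg (hf0 _)
    (Real.sqrt_nonneg _)) x, hsupp, ?_⟩
  have hKm : MeasurableSet K := hK.measurableSet
  have hφK : Measurable (fun z : K => φ z) :=
    (continuousOn_iff_continuous_domRestrict.1 (φ.continuousOn.mono hKs)).measurable
  ext B hB
  rw [Measure.map_apply hφK hB, (MeasurableEmbedding.subtype_coe hKm).comap_apply,
    withDensity_apply _ hB, withDensity_apply _ ((MeasurableEmbedding.subtype_coe hKm).measurableSet_image.2 (hφK hB))]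
  have hs : MeasurableSet (B ∩ φ '' K) := hB.inter hcK.measurableSet
  have himg : Subtype.val '' ((fun z : K => φ z) ⁻¹' B) = φ.symm '' (B ∩ φ '' K) := by
    ext y
    constructor
    · rintro ⟨z, hz, rfl⟩
      exact ⟨φ z, ⟨hz, z, z.2, rfl⟩, φ.left_inv (hKs z.2)⟩
    · rintro ⟨_, ⟨hx, z, hz, rfl⟩, rfl⟩
      exact ⟨⟨z, hz⟩, hx, (φ.left_inv (hKs hz)).symm⟩
  rw [himg, lintegral_image_eq_lintegral_abs_det_fderiv_mul μ hs
    (f' := fun x => fderiv ℝ φ.symm x) (fun x hx =>
      ((hψ.contDiffAt (φ.open_target.mem_nhds (hKt hx.2))).differentiableAt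
        (by simp)).hasFDerivAt.hasFDerivWithinAt)
    (φ.symm.injOn.mono fun x hx => hKt hx.2)]
  have e1 : ∫⁻ x in B, ENNReal.ofReal (g x ^ 2) ∂μ =
      ∫⁻ x in B, (φ '' K).indicator (fun x => ENNReal.ofReal (g x ^ 2)) x ∂μ := by
    refine lintegral_congr fun x => ?_
    by_cases hx : x ∈ φ '' K
    · rw [indicator_of_mem hx]
    · rw [indicator_of_notMem hx]
      have : g x = 0 := by
        by_contra hne
        exact hx (hsupp hne)
      simp [this]
  rw [e1, lintegral_indicator hcK.measurableSet, Measure.restrict_restrict hcK.measurableSet,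
    inter_comm]
  refine setLIntegral_congr_fun hs fun x hx => ?_
  rw [hg, indicator_of_mem (hKt hx.2), mul_pow, Real.sq_sqrt (abs_nonneg _),
    ← ENNReal.ofReal_mul (abs_nonneg _), mul_comm]

end Crest.Agent.R130
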