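import Mathlib

set_option autoImplicit false

open Set Filter Topology Function Metric
open scoped ContDiff RealInnerProductSpace

namespace Crest.Agent.R130

section Diffeo
variable {F : Type*} [NormedAddCommGroup F] [NormedSpace ℝ F] [FiniteDimensional ℝ F]

/-- Analytic local diffeomorphism from an injective derivative. -/
theorem exists_local_diffeo {f : F → F} {x : F} (hf : ContDiffAt ℝ ω f x)
    (hinj : Injective (fderiv ℝ f x)) :
    ∃ φ : OpenPartialHomeomorph F F, (φ : F → F) = f ∧ x ∈ φ.source ∧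
      (∀ y ∈ φ.source, ContDiffAt ℝ ω φ y) ∧ (∀ y ∈ φ.target, ContDiffAt ℝ ω φ.symm y) := by
  have : CompleteSpace F := FiniteDimensional.complete ℝ F
  let A : F ≃L[ℝ] F :=
    (LinearEquiv.ofInjectiveEndo (fderiv ℝ f x : F →ₗ[ℝ] F) hinj).toContinuousLinearEquiv
  have hA : HasFDerivAt f (A : F →L[ℝ] F) x := by
    have := (hf.differentiableAt (by simp)).hasFDerivAt
    convert this using 1
    ext v; rfl
  let φ₀ := hf.toOpenPartialHomeomorph f hA (by simp)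
  have hx₀ : x ∈ φ₀.source := hf.mem_toOpenPartialHomeomorph_source hA (by simp)
  have hsymm : ContDiffAt ℝ ω φ₀.symm (f x) := hf.to_localInverse hA (by simp)
  have h1 : ∀ᶠ y in 𝓝 x, ContDiffAt ℝ ω f y := hf.eventually (by simp)
  have h2 : ∀ᶠ y in 𝓝 x, ContDiffAt ℝ ω φ₀.symm (f y) :=
    hf.continuousAt.tendsto.eventually (hsymm.eventually (by simp))
  obtain ⟨U, hU, hUo, hxU⟩ := _root_.eventually_nhds_iff.1 (h1.and h2)
  refine ⟨φ₀.restrOpen U hUo, rfl, ⟨hx₀, hxU⟩, fun y hy => (hU y hy.2).1, fun y hy => ?_⟩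
  have h3 := (φ₀.restrOpen U hUo).map_target hy
  have h4 := (φ₀.restrOpen U hUo).right_inv hy
  have h5 := (hU _ h3.2).2
  have h6 : f ((φ₀.restrOpen U hUo).symm y) = y := h4
  rw [h6] at h5
  exact h5

/-- The linearised critical-point system is rigid for a large penalty. -/
theorem linear_rigid (A B C : F →L[ℝ] F) (hA : Injective A) (hC : Injective C) :
    ∃ M₀ : ℝ, ∀ M, M₀ ≤ M → ∀ z a c : F,
      A (z - a) + B (z - c) + M • z = 0 → -B (z - c) - C (a - c) + M • c = 0 →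
      (z = 0 ∨ a = 0 ∨ c = 0) → z = 0 ∧ a = 0 ∧ c = 0 := by
  obtain ⟨KA, -, hKA⟩ := (A : F →ₗ[ℝ] F).exists_antilipschitzWith (LinearMap.ker_eq_bot.2 hA)
  obtain ⟨KC, -, hKC⟩ := (C : F →ₗ[ℝ] F).exists_antilipschitzWith (LinearMap.ker_eq_bot.2 hC)
  have hA' : ∀ v, ‖v‖ ≤ KA * ‖A v‖ := fun v => by simpa using hKA.le_mul_dist v 0
  have hC' : ∀ v, ‖v‖ ≤ KC * ‖C v‖ := fun v => by simpa using hKC.le_mul_dist v 0
  have a0 := norm_nonneg A
  have b0 := norm_nonneg B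
  have c0 := norm_nonneg C
  have ka : (0 : ℝ) ≤ KA := KA.2
  have kc : (0 : ℝ) ≤ KC := KC.2
  refine ⟨1 + ‖A‖ + 2 * ‖B‖ + ‖C‖ + ‖C‖ * KA * ‖B‖ + ‖A‖ * KC * ‖B‖,
    fun M hM z a c h1 h2 h => ?_⟩
  have p1 : 0 ≤ ‖C‖ * KA * ‖B‖ := by positivity
  have p2 : 0 ≤ ‖A‖ * KC * ‖B‖ := by positivity
  have hM0 : 0 ≤ M := by linarith
  have e1 : M * ‖z‖ ≤ ‖A‖ * ‖z - a‖ + ‖B‖ * ‖z - c‖ := by
    have : M • z = -(A (z - a) + B (z - c)) := by
      rw [eq_neg_iff_add_eq_zero, add_comm]; exact h1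
    calc M * ‖z‖ = ‖M • z‖ := by rw [norm_smul, Real.norm_of_nonneg hM0]
      _ ≤ ‖A (z - a)‖ + ‖B (z - c)‖ := by rw [this, norm_neg]; exact norm_add_le _ _
      _ ≤ _ := add_le_add (A.le_opNorm _) (B.le_opNorm _)
  have e2 : M * ‖c‖ ≤ ‖B‖ * ‖z - c‖ + ‖C‖ * ‖a - c‖ := by
    have : M • c = B (z - c) + C (a - c) := by
      rw [← sub_eq_zero, ← h2]; abel
    calc M * ‖c‖ = ‖M • c‖ := by rw [norm_smul, Real.norm_of_nonneg hM0]
      _ ≤ ‖B (z - c)‖ + ‖C (a - c)‖ := by rw [this]; exact norm_add_le _ _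
      _ ≤ _ := add_le_add (B.le_opNorm _) (C.le_opNorm _)
  have nz := norm_nonneg z
  have na := norm_nonneg a
  have nc := norm_nonneg c
  rcases h with rfl | rfl | rfl
  · have f1 : A a = B (-c) := by
      simp only [zero_sub, map_neg, smul_zero, add_zero] at h1 ⊢
      rw [← sub_eq_zero, ← neg_eq_zero, ← h1]; abel
    have f2 : ‖a‖ ≤ KA * (‖B‖ * ‖c‖) := by
      refine (hA' a).trans (mul_le_mul_of_nonneg_left ?_ ka)
      rw [f1]; simpa using B.le_opNorm (-c)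
    have f3 : ‖a - c‖ ≤ ‖a‖ + ‖c‖ := norm_sub_le _ _
    rw [zero_sub, norm_neg] at e2
    have f4 : ‖C‖ * ‖a - c‖ ≤ ‖C‖ * (KA * (‖B‖ * ‖c‖) + ‖c‖) :=
      mul_le_mul_of_nonneg_left (by linarith) c0
    have f5 : ‖c‖ ≤ 0 := by nlinarith
    have hc : c = 0 := norm_le_zero_iff.1 f5
    subst hc
    exact ⟨rfl, norm_le_zero_iff.1 (by simpa using f2), rfl⟩
  · have f3 : ‖z - c‖ ≤ ‖z‖ + ‖c‖ := norm_sub_le _ _
    rw [sub_zero] at e1
    rw [zero_sub, norm_neg] at e2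
    have f4 : ‖B‖ * ‖z - c‖ ≤ ‖B‖ * (‖z‖ + ‖c‖) := mul_le_mul_of_nonneg_left f3 b0
    have f5 : ‖z‖ + ‖c‖ ≤ 0 := by nlinarith
    exact ⟨norm_le_zero_iff.1 (by linarith), rfl, norm_le_zero_iff.1 (by linarith)⟩
  · have f1 : C a = B (-z) := by
      simp only [sub_zero, map_neg, smul_zero, add_zero] at h2 ⊢
      rw [← sub_eq_zero, ← neg_eq_zero, ← h2]; abel
    have f2 : ‖a‖ ≤ KC * (‖B‖ * ‖z‖) := by
      refine (hC' a).trans (mul_le_mul_of_nonneg_left ?_ kc)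
      rw [f1]; simpa using B.le_opNorm (-z)
    have f3 : ‖z - a‖ ≤ ‖z‖ + ‖a‖ := norm_sub_le _ _
    rw [sub_zero] at e1
    have f4 : ‖A‖ * ‖z - a‖ ≤ ‖A‖ * (‖z‖ + KC * (‖B‖ * ‖z‖)) :=
      mul_le_mul_of_nonneg_left (by linarith) a0
    have f5 : ‖z‖ ≤ 0 := by nlinarith
    have hz : z = 0 := norm_le_zero_iff.1 f5
    subst hz
    exact ⟨rfl, norm_le_zero_iff.1 (by simpa using f2), rfl⟩

end Diffeo

section Riesz
variable {E : Type*} [NormedAddCommGroup E] [InnerProductSpace ℝ E]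

/-- The real pair interaction. -/
noncomputable def hh (s : ℝ) (x : E) : ℝ := ‖x‖ ^ (-s)

/-- Its gradient. -/
noncomputable def NN (s : ℝ) (x : E) : E := (-s * ‖x‖ ^ (-s - 2)) • x

theorem hasFDerivAt_norm_rpow' (p : ℝ) {x : E} (hx : x ≠ 0) :
    HasFDerivAt (fun y : E => ‖y‖ ^ p) ((p * ‖x‖ ^ (p - 2)) • innerSL ℝ x) x := by
  have hn : 0 < ‖x‖ := norm_pos_iff.2 hx
  have h1 := (hasStrictFDerivAt_norm_sq x).hasFDerivAt.rpow_const (p := p / 2)
    (Or.inl (pow_pos hn 2).ne')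
  have e : ∀ (y : E) (q : ℝ), (‖y‖ ^ 2) ^ q = ‖y‖ ^ (2 * q) := fun y q => by
    rw [Real.rpow_mul (norm_nonneg y), Real.rpow_two]
  simp only [e] at h1
  convert h1 using 1
  · ext y; congr 1; ring
  · ext v
    simp only [smul_apply, smul_eq_mul, nsmul_eq_mul]
    rw [show 2 * (p / 2 - 1) = p - 2 by ring]
    push_cast; ring

theorem hasFDerivAt_hh (s : ℝ) {x : E} (hx : x ≠ 0) :
    HasFDerivAt (hh s) (innerSL ℝ (NN s x)) x := by
  have := hasFDerivAt_norm_rpow' (-s) hx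
  have e : innerSL ℝ (NN s x) = (-s * ‖x‖ ^ (-s - 2)) • innerSL ℝ x := by
    ext v
    simp [NN, inner_smul_left]
  rw [e]
  exact this

theorem contDiffAt_hh (s : ℝ) {x : E} (hx : x ≠ 0) : ContDiffAt ℝ ω (hh s) x :=
  (contDiffAt_norm ℝ hx).rpow_const_of_ne (norm_ne_zero_iff.2 hx)

theorem contDiffAt_NN (s : ℝ) {x : E} (hx : x ≠ 0) : ContDiffAt ℝ ω (NN s) x :=
  (contDiffAt_const.mul ((contDiffAt_norm ℝ hx).rpow_const_of_ne
    (norm_ne_zero_iff.2 hx))).smul contDiffAt_id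

theorem NN_neg (s : ℝ) (x : E) : NN s (-x) = -NN s x := by simp [NN]

theorem injective_fderiv_NN {s : ℝ} (hs : 0 < s) {x : E} (hx : x ≠ 0) :
    Injective (fderiv ℝ (NN s) x) := by
  have hn : 0 < ‖x‖ := norm_pos_iff.2 hx
  have h1 := ((hasFDerivAt_norm_rpow' (-s - 2) hx).const_mul (-s)).smul (hasFDerivAt_id x)
  have h2 : fderiv ℝ (NN s) x = _ := h1.fderiv
  rw [h2, ← ContinuousLinearMap.coe_coe, ← LinearMap.ker_eq_bot, LinearMap.ker_eq_bot']
  intro v hv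
  simp only [ContinuousLinearMap.coe_coe, add_apply,
    smul_apply, ContinuousLinearMap.id_apply, id,
    ContinuousLinearMap.smulRight_apply, innerSL_apply_apply, smul_eq_mul] at hv
  have h3 := congrArg (fun w => ⟪x, w⟫) hv
  simp only [inner_add_right, inner_smul_right, inner_zero_right, real_inner_self_eq_norm_sq] at h3
  have e : ‖x‖ ^ (-s - 2) = ‖x‖ ^ (-s - 2 - 2) * ‖x‖ ^ 2 := by
    rw [← Real.rpow_two, ← Real.rpow_add hn]; congr 1; ring
  have hp : 0 < ‖x‖ ^ (-s - 2) := Real.rpow_pos_of_pos hn _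
  have h4 : (s * (s + 1) * ‖x‖ ^ (-s - 2)) * ⟪x, v⟫ = 0 := by
    rw [← h3, e]; ring
  have h5 : ⟪x, v⟫ = 0 := by
    rcases mul_eq_zero.1 h4 with h | h
    · exact absurd h (by positivity)
    · exact h
  rw [h5] at hv
  simp only [mul_zero, zero_smul, add_zero, smul_eq_zero] at hv
  rcases hv with h | h
  · exact absurd h (by have := mul_pos hs hp; linarith)
  · exact h

theorem taylor_lower (s : ℝ) {p : E} (hp : p ≠ 0) :
    ∃ L : ℝ, 0 ≤ L ∧ ∃ ρ > 0, ∀ x ∈ ball p ρ, ∀ y ∈ ball p ρ,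
      hh s x + ⟪NN s x, y - x⟫ - L * ‖y - x‖ ^ 2 ≤ hh s y := by
  obtain ⟨K, t, ht, hK⟩ := ((contDiffAt_NN s hp).of_le (m := 1) le_top).exists_lipschitzOnWith
  have hne : {x : E | x ≠ 0} ∈ 𝓝 p := isOpen_ne.mem_nhds hp
  obtain ⟨ρ, hρ, hb⟩ := Metric.mem_nhds_iff.1 (inter_mem ht hne)
  refine ⟨K, K.2, ρ, hρ, fun x hx y hy => ?_⟩
  have hseg : segment ℝ x y ⊆ ball p ρ := (convex_ball p ρ).segment_subset hx hy
  have := (convex_segment x y).norm_image_sub_le_of_norm_hasFDerivWithin_le'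
    (f := hh s) (f' := fun w => innerSL ℝ (NN s w)) (φ := innerSL ℝ (NN s x))
    (C := K * ‖y - x‖)
    (fun w hw => (hasFDerivAt_hh s (hb (hseg hw)).2).hasFDerivWithinAt)
    (fun w hw => by
      rw [← map_sub, innerSL_apply_norm, ← dist_eq_norm]
      refine (hK.dist_le_mul _ (hb (hseg hw)).1 _ (hb hx).1).trans ?_
      rw [dist_eq_norm]
      exact mul_le_mul_of_nonneg_left (norm_sub_le_of_mem_segment hw) K.2)
    (left_mem_segment ℝ x y) (right_mem_segment ℝ x y)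
  rw [Real.norm_eq_abs, abs_le, innerSL_apply_apply] at this
  nlinarith [this.1]

end Riesz

end Crest.Agent.R130
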