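import Mathlib
import Crest.Agent.R130.Local1

set_option autoImplicit false

open Set Filter Topology Function Metric
open scoped ContDiff RealInnerProductSpace

namespace Crest.Agent.R130

variable {E : Type*} [NormedAddCommGroup E] [InnerProductSpace ℝ E]

/-- The real three-particle cost. -/
noncomputable def cR (s : ℝ) (x y w : E) : ℝ := hh s (x - y) + hh s (x - w) + hh s (y - w)

theorem convex_ineq {M L₁ L₂ L₃ : ℝ} (h1 : 0 ≤ L₁) (h2 : 0 ≤ L₂) (h3 : 0 ≤ L₃)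
    (hM : 2 * (1 + L₁ + 2 * L₂ + L₃) ≤ M) {z₁ z₂ c₂ c₃ e ℓ N₁ N₂ N₃ : E}
    {p₁ p₂ p₃ q₁ q₂ q₃ : ℝ}
    (e1 : N₁ + N₂ + M • z₂ = 0) (e2 : -N₂ - N₃ + M • (c₂ + e) - ℓ = 0)
    (t1 : p₁ + ⟪N₁, z₁ - z₂⟫ - L₁ * ‖z₁ - z₂‖ ^ 2 ≤ q₁)
    (t2 : p₂ + ⟪N₂, (z₁ - z₂) - (c₃ - c₂)⟫ - L₂ * ‖(z₁ - z₂) - (c₃ - c₂)‖ ^ 2 ≤ q₂)
    (t3 : p₃ + ⟪N₃, -(c₃ - c₂)⟫ - L₃ * ‖-(c₃ - c₂)‖ ^ 2 ≤ q₃) :
    (2 - M / 2 * ‖z₁‖ ^ 2) + (p₁ + p₂ + p₃ - (2 - M / 2 * ‖z₂‖ ^ 2) -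
      (⟪ℓ, c₂ + e⟫ - M / 2 * ‖c₂ + e‖ ^ 2)) + (⟪ℓ, c₃ + e⟫ - M / 2 * ‖c₃ + e‖ ^ 2) +
      (‖z₁ - z₂‖ ^ 2 + ‖c₃ - c₂‖ ^ 2) ≤ q₁ + q₂ + q₃ := by
  obtain ⟨dz, rfl⟩ : ∃ dz, z₁ = z₂ + dz := ⟨z₁ - z₂, by abel⟩
  obtain ⟨dc, rfl⟩ : ∃ dc, c₃ = c₂ + dc := ⟨c₃ - c₂, by abel⟩
  simp only [add_sub_cancel_left] at t1 t2 t3 ⊢
  have f1 : ⟪N₁, dz⟫ + ⟪N₂, dz⟫ + M * ⟪z₂, dz⟫ = 0 := by
    have := congrArg (fun w => ⟪w, dz⟫) e1
    simpa [inner_add_left, inner_smul_left] using this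
  have f2 : -⟪N₂, dc⟫ - ⟪N₃, dc⟫ + M * ⟪c₂ + e, dc⟫ - ⟪ℓ, dc⟫ = 0 := by
    have := congrArg (fun w => ⟪w, dc⟫) e2
    simpa only [inner_sub_left, inner_add_left (-N₂ - N₃), inner_neg_left, real_inner_smul_left,
      inner_zero_left] using this
  have g1 : ‖z₂ + dz‖ ^ 2 = ‖z₂‖ ^ 2 + 2 * ⟪z₂, dz⟫ + ‖dz‖ ^ 2 := norm_add_sq_real _ _
  have g2 : ‖c₂ + dc + e‖ ^ 2 = ‖c₂ + e‖ ^ 2 + 2 * ⟪c₂ + e, dc⟫ + ‖dc‖ ^ 2 := by
    rw [show c₂ + dc + e = (c₂ + e) + dc by abel]; exact norm_add_sq_real _ _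
  have g3 : ⟪ℓ, c₂ + dc + e⟫ = ⟪ℓ, c₂ + e⟫ + ⟪ℓ, dc⟫ := by
    rw [show c₂ + dc + e = (c₂ + e) + dc by abel, inner_add_right]
  have g4 : ‖dz - dc‖ ^ 2 ≤ 2 * ‖dz‖ ^ 2 + 2 * ‖dc‖ ^ 2 := by
    have := norm_sub_le dz dc
    have h0 := norm_nonneg (dz - dc)
    nlinarith [sq_nonneg (‖dz‖ - ‖dc‖), norm_nonneg dz, norm_nonneg dc]
  rw [inner_sub_right] at t2
  rw [inner_neg_right, norm_neg] at t3
  rw [g1, g2, g3]
  have k1 := sq_nonneg ‖dz‖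
  have k2 := sq_nonneg ‖dc‖
  have g5 : L₂ * ‖dz - dc‖ ^ 2 ≤ L₂ * (2 * ‖dz‖ ^ 2 + 2 * ‖dc‖ ^ 2) :=
    mul_le_mul_of_nonneg_left g4 h2
  have g6 : (1 + L₁ + 2 * L₂ + L₃) * (‖dz‖ ^ 2 + ‖dc‖ ^ 2) ≤ M / 2 * (‖dz‖ ^ 2 + ‖dc‖ ^ 2) :=
    mul_le_mul_of_nonneg_right (by linarith) (by positivity)
  nlinarith [mul_nonneg h1 k2, mul_nonneg h3 k1]

variable [FiniteDimensional ℝ E]

/-- The critical graph: analytic maps `α`, `γ` near `0` with injective derivatives solving the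
critical-point equations. -/
theorem exists_graph {s : ℝ} (hs : 0 < s) {e : E} (he : e ≠ 0) :
    ∃ M₀ : ℝ, ∀ M, M₀ ≤ M → ∃ α γ : E → E, α 0 = e ∧ γ 0 = -e ∧
      ContDiffAt ℝ ω α 0 ∧ ContDiffAt ℝ ω γ 0 ∧
      Injective (fderiv ℝ α 0) ∧ Injective (fderiv ℝ γ 0) ∧
      ∀ᶠ z in 𝓝 (0 : E), NN s (z - α z) + NN s (z - γ z) + M • z = 0 ∧
        -NN s (z - γ z) - NN s (α z - γ z) + M • (γ z + e) - (-NN s e - NN s (e + e)) = 0 := by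
  have hne : -e ≠ 0 := neg_ne_zero.2 he
  have h2e : e + e ≠ 0 := by
    rw [← two_smul ℝ e]; exact smul_ne_zero two_ne_zero he
  obtain ⟨M₀, hM₀⟩ := linear_rigid (fderiv ℝ (NN s) (-e)) (fderiv ℝ (NN s) e)
    (fderiv ℝ (NN s) (e + e)) (injective_fderiv_NN hs hne) (injective_fderiv_NN hs h2e)
  refine ⟨M₀, fun M hM => ?_⟩
  set A := fderiv ℝ (NN s) (-e)
  set B := fderiv ℝ (NN s) e
  set C := fderiv ℝ (NN s) (e + e)
  let Φ : E × E × E → E × E × E := fun q =>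
    (q.1, NN s (q.1 - q.2.1) + NN s (q.1 - q.2.2) + M • q.1,
      -NN s (q.1 - q.2.2) - NN s (q.2.1 - q.2.2) + M • (q.2.2 + e) - (-NN s e - NN s (e + e)))
  let q₀ : E × E × E := (0, e, -e)
  have k1 : ContDiffAt ℝ ω (fun q : E × E × E => NN s (q.1 - q.2.1)) q₀ :=
    ContDiffAt.comp (g := NN s) q₀ (by simpa [q₀] using contDiffAt_NN s hne) (by fun_prop)
  have k2 : ContDiffAt ℝ ω (fun q : E × E × E => NN s (q.1 - q.2.2)) q₀ :=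
    ContDiffAt.comp (g := NN s) q₀ (by simpa [q₀] using contDiffAt_NN s he) (by fun_prop)
  have k3 : ContDiffAt ℝ ω (fun q : E × E × E => NN s (q.2.1 - q.2.2)) q₀ :=
    ContDiffAt.comp (g := NN s) q₀ (by simpa [q₀] using contDiffAt_NN s h2e) (by fun_prop)
  have hΦ : ContDiffAt ℝ ω Φ q₀ := by
    refine contDiffAt_fst.prodMk (ContDiffAt.prodMk ((k1.add k2).add (by fun_prop)) ?_)
    exact ((k2.neg.sub k3).add (by fun_prop)).sub contDiffAt_const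
  let P1 : E × E × E →L[ℝ] E := ContinuousLinearMap.fst ℝ E (E × E)
  let P2 : E × E × E →L[ℝ] E :=
    (ContinuousLinearMap.fst ℝ E E).comp (ContinuousLinearMap.snd ℝ E (E × E))
  let P3 : E × E × E →L[ℝ] E :=
    (ContinuousLinearMap.snd ℝ E E).comp (ContinuousLinearMap.snd ℝ E (E × E))
  have d1 : HasFDerivAt (fun q : E × E × E => NN s (q.1 - q.2.1)) (A.comp (P1 - P2)) q₀ :=
    HasFDerivAt.comp (g := NN s) q₀
      (by simpa [q₀] using ((contDiffAt_NN s hne).differentiableAt (by simp)).hasFDerivAt)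
      (P1 - P2).hasFDerivAt
  have d2 : HasFDerivAt (fun q : E × E × E => NN s (q.1 - q.2.2)) (B.comp (P1 - P3)) q₀ :=
    HasFDerivAt.comp (g := NN s) q₀
      (by simpa [q₀] using ((contDiffAt_NN s he).differentiableAt (by simp)).hasFDerivAt)
      (P1 - P3).hasFDerivAt
  have d3 : HasFDerivAt (fun q : E × E × E => NN s (q.2.1 - q.2.2)) (C.comp (P2 - P3)) q₀ :=
    HasFDerivAt.comp (g := NN s) q₀
      (by simpa [q₀] using ((contDiffAt_NN s h2e).differentiableAt (by simp)).hasFDerivAt)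
      (P2 - P3).hasFDerivAt
  have hD : HasFDerivAt Φ (P1.prod ((A.comp (P1 - P2) + B.comp (P1 - P3) + M • P1).prod
      (-B.comp (P1 - P3) - C.comp (P2 - P3) + M • P3))) q₀ :=
    P1.hasFDerivAt.prodMk (((d1.add d2).add (P1.hasFDerivAt.const_smul M)).prodMk
      (((d2.neg.sub d3).add ((P3.hasFDerivAt.add_const e).const_smul M)).sub_const _))
  have hDv : ∀ w : E × E × E, fderiv ℝ Φ q₀ w = (w.1, A (w.1 - w.2.1) + B (w.1 - w.2.2) + M • w.1,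
      -B (w.1 - w.2.2) - C (w.2.1 - w.2.2) + M • w.2.2) := fun w => by
    rw [hD.fderiv]; rfl
  have hinj : Injective (fderiv ℝ Φ q₀) := by
    rw [← ContinuousLinearMap.coe_coe, ← LinearMap.ker_eq_bot, LinearMap.ker_eq_bot']
    intro w hw
    rw [ContinuousLinearMap.coe_coe, hDv] at hw
    simp only [Prod.mk_eq_zero] at hw
    obtain ⟨a, b, c⟩ := hM₀ M hM w.1 w.2.1 w.2.2 hw.2.1 hw.2.2 (Or.inl hw.1)
    exact Prod.ext a (Prod.ext b c)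
  obtain ⟨φ, hφ, hq₀, -, hsym⟩ := exists_local_diffeo hΦ hinj
  have hΦq₀ : Φ q₀ = (0, 0, 0) := by
    simp [Φ, q₀, NN_neg]
  have ht : ((0, 0, 0) : E × E × E) ∈ φ.target := by
    rw [← hΦq₀, ← hφ]; exact φ.map_source hq₀
  let G : E → E × E × E := fun z => φ.symm (z, 0, 0)
  have hι : ContDiff ℝ ω (fun z : E => ((z, 0, 0) : E × E × E)) := by fun_prop
  have hG : ContDiffAt ℝ ω G 0 := ContDiffAt.comp (g := φ.symm) 0 (hsym _ ht) hι.contDiffAt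
  have hG0 : G 0 = q₀ := by
    have : G 0 = φ.symm (φ q₀) := by rw [hφ, hΦq₀]
    rw [this, φ.left_inv hq₀]
  have hev : ∀ᶠ z in 𝓝 (0 : E), Φ (G z) = (z, 0, 0) := by
    have : ∀ᶠ z in 𝓝 (0 : E), ((z, 0, 0) : E × E × E) ∈ φ.target :=
      hι.continuous.continuousAt.eventually (φ.open_target.mem_nhds ht)
    filter_upwards [this] with z hz
    rw [← hφ]; exact φ.right_inv hz
  have hGd := (hG.differentiableAt (by simp)).hasFDerivAt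
  have hchain : ∀ v, fderiv ℝ Φ q₀ (fderiv ℝ G 0 v) = (v, 0, 0) := by
    have c1 : HasFDerivAt (Φ ∘ G) ((fderiv ℝ Φ q₀).comp (fderiv ℝ G 0)) 0 :=
      HasFDerivAt.comp 0 (hG0 ▸ (hΦ.differentiableAt (by simp)).hasFDerivAt) hGd
    have c2 : HasFDerivAt (Φ ∘ G) (ContinuousLinearMap.inl ℝ E (E × E)) 0 :=
      (ContinuousLinearMap.inl ℝ E (E × E)).hasFDerivAt.congr_of_eventuallyEq hev
    intro v
    exact DFunLike.congr_fun (c1.unique c2) v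
  have hlin : ∀ v, (fderiv ℝ G 0 v).2.1 = 0 ∨ (fderiv ℝ G 0 v).2.2 = 0 → v = 0 := by
    intro v hv
    have := hchain v
    rw [hDv] at this
    simp only [Prod.mk.injEq] at this
    obtain ⟨a, -, -⟩ := hM₀ M hM _ _ _ this.2.1 this.2.2 (Or.inr hv)
    rw [← this.1, a]
  refine ⟨fun z => (G z).2.1, fun z => (G z).2.2, by simp [hG0, q₀], by simp [hG0, q₀],
    hG.snd.fst, hG.snd.snd, ?_, ?_, ?_⟩
  · have : fderiv ℝ (fun z => (G z).2.1) 0 = _ := (P2.hasFDerivAt.comp 0 hGd).fderiv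
    rw [this, ← ContinuousLinearMap.coe_coe,
      ← LinearMap.ker_eq_bot, LinearMap.ker_eq_bot']
    exact fun v hv => hlin v (Or.inl hv)
  · have : fderiv ℝ (fun z => (G z).2.2) 0 = _ := (P3.hasFDerivAt.comp 0 hGd).fderiv
    rw [this, ← ContinuousLinearMap.coe_coe,
      ← LinearMap.ker_eq_bot, LinearMap.ker_eq_bot']
    exact fun v hv => hlin v (Or.inr hv)
  · filter_upwards [hev] with z hz
    simp only [Φ, Prod.mk.injEq] at hz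
    obtain ⟨a, b, c⟩ := hz
    rw [a] at b c
    exact ⟨b, c⟩

theorem local_main {s : ℝ} (hs : 0 < s) {e : E} (he : ‖e‖ = 1) :
    ∃ M₀ : ℝ, ∀ M, M₀ ≤ M → ∃ (α γ : OpenPartialHomeomorph E E) (vA vC : E → ℝ),
      (0 : E) ∈ α.source ∧ (0 : E) ∈ γ.source ∧ α 0 = e ∧ γ 0 = -e ∧
      ContDiffOn ℝ ∞ α α.source ∧ ContDiffOn ℝ ∞ α.symm α.target ∧
      ContDiffOn ℝ ∞ γ γ.source ∧ ContDiffOn ℝ ∞ γ.symm γ.target ∧
      (∀ᶠ z in 𝓝 (0 : E), ContinuousAt vA z) ∧ (∀ᶠ z in 𝓝 (0 : E), ContinuousAt vC z) ∧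
      vA 0 = 2 ^ (-s) / 2 ∧ vC 0 = 2 ^ (-s) / 2 ∧
      (∀ z, cR s z (α z) (γ z) = (2 - M / 2 * ‖z‖ ^ 2) + vA z + vC z) ∧
      ∀ᶠ q : E × E × E in 𝓝 0, (2 - M / 2 * ‖q.1‖ ^ 2) + vA q.2.1 + vC q.2.2 +
        (‖q.1 - q.2.1‖ ^ 2 + ‖γ q.2.2 - γ q.2.1‖ ^ 2) ≤ cR s q.1 (α q.2.1) (γ q.2.2) := by
  have he0 : e ≠ 0 := by rintro rfl; simp at he
  have hne : -e ≠ 0 := neg_ne_zero.2 he0
  have h2n : ‖e + e‖ = 2 := by rw [← two_smul ℝ e, norm_smul, he]; simp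
  have h2e : e + e ≠ 0 := by rintro h; rw [h] at h2n; simp at h2n
  obtain ⟨M₀, hM₀⟩ := exists_graph hs he0
  obtain ⟨L₁, hL₁, ρ₁, hρ₁, T₁⟩ := taylor_lower s hne
  obtain ⟨L₂, hL₂, ρ₂, hρ₂, T₂⟩ := taylor_lower s he0
  obtain ⟨L₃, hL₃, ρ₃, hρ₃, T₃⟩ := taylor_lower s h2e
  refine ⟨max M₀ (2 * (1 + L₁ + 2 * L₂ + L₃)), fun M hM => ?_⟩
  obtain ⟨α, γ, hα0, hγ0, hα, hγ, hαi, hγi, hcrit⟩ := hM₀ M (le_of_max_le_left hM)
  obtain ⟨φ, rfl, hφ0, hφ1, hφ2⟩ := exists_local_diffeo hα hαi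
  obtain ⟨ψ, rfl, hψ0, hψ1, hψ2⟩ := exists_local_diffeo hγ hγi
  set ℓ : E := -NN s e - NN s (e + e)
  let uC : E → ℝ := fun c => ⟪ℓ, c + e⟫ - M / 2 * ‖c + e‖ ^ 2
  have huC : ContDiff ℝ ω uC :=
    (contDiff_const.inner ℝ (contDiff_id.add contDiff_const)).sub
      (contDiff_const.mul ((contDiff_id.add contDiff_const).norm_sq ℝ))
  have hvC : ContDiffAt ℝ ω (fun z => uC (ψ z) + 2 ^ (-s) / 2) 0 :=
    (huC.contDiffAt.comp 0 hγ).add contDiffAt_const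
  have hcR : ContDiffAt ℝ ω (fun z => cR s z (φ z) (ψ z)) 0 := by
    refine (ContDiffAt.add ?_ ?_).add ?_
    · exact ContDiffAt.comp (g := hh s) 0 (by simpa [hα0] using contDiffAt_hh s hne)
        (contDiffAt_id.sub hα)
    · exact ContDiffAt.comp (g := hh s) 0 (by simpa [hγ0] using contDiffAt_hh s he0)
        (contDiffAt_id.sub hγ)
    · exact ContDiffAt.comp (g := hh s) 0 (by simpa [hα0, hγ0] using contDiffAt_hh s h2e)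
        (hα.sub hγ)
  have hvA : ContDiffAt ℝ ω (fun z => cR s z (φ z) (ψ z) - (2 - M / 2 * ‖z‖ ^ 2) - uC (ψ z)
      - 2 ^ (-s) / 2) 0 :=
    ((hcR.sub (contDiffAt_const.sub (contDiffAt_const.mul (contDiffAt_id.norm_sq ℝ)))).sub
      (huC.contDiffAt.comp 0 hγ)).sub contDiffAt_const
  refine ⟨φ, ψ, fun z => cR s z (φ z) (ψ z) - (2 - M / 2 * ‖z‖ ^ 2) - uC (ψ z) - 2 ^ (-s) / 2,
    fun z => uC (ψ z) + 2 ^ (-s) / 2, hφ0, hψ0, hα0, hγ0,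
    fun y hy => ((hφ1 y hy).of_le le_top).contDiffWithinAt,
    fun y hy => ((hφ2 y hy).of_le le_top).contDiffWithinAt,
    fun y hy => ((hψ1 y hy).of_le le_top).contDiffWithinAt,
    fun y hy => ((hψ2 y hy).of_le le_top).contDiffWithinAt,
    (hvA.eventually (by simp)).mono fun z hz => hz.continuousAt,
    (hvC.eventually (by simp)).mono fun z hz => hz.continuousAt, ?_, ?_, fun z => by ring, ?_⟩
  · simp only [cR, hh, uC, hα0, hγ0, zero_sub, norm_neg, he, sub_neg_eq_add, h2n, neg_neg,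
      neg_add_cancel, inner_zero_right, norm_zero, Real.one_rpow, zero_add]
    ring
  · simp [uC, hγ0]
  · have c1 : ContinuousAt (fun q : E × E × E => q.1) 0 := continuousAt_fst
    have c2 : ContinuousAt (fun q : E × E × E => q.2.1) 0 := continuousAt_snd.fst
    have c3 : ContinuousAt (fun q : E × E × E => q.2.2) 0 := continuousAt_snd.snd
    have a2 : ContinuousAt (fun q : E × E × E => φ q.2.1) 0 :=
      ContinuousAt.comp (g := φ) hα.continuousAt c2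
    have g2 : ContinuousAt (fun q : E × E × E => ψ q.2.1) 0 :=
      ContinuousAt.comp (g := ψ) hγ.continuousAt c2
    have g3 : ContinuousAt (fun q : E × E × E => ψ q.2.2) 0 :=
      ContinuousAt.comp (g := ψ) hγ.continuousAt c3
    have b1 : ∀ᶠ q : E × E × E in 𝓝 0, q.2.1 - φ q.2.1 ∈ ball (-e) ρ₁ :=
      (c2.sub a2).eventually (isOpen_ball.mem_nhds (by simp [hα0, hρ₁]))
    have b2 : ∀ᶠ q : E × E × E in 𝓝 0, q.1 - φ q.2.1 ∈ ball (-e) ρ₁ :=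
      (c1.sub a2).eventually (isOpen_ball.mem_nhds (by simp [hα0, hρ₁]))
    have b3 : ∀ᶠ q : E × E × E in 𝓝 0, q.2.1 - ψ q.2.1 ∈ ball e ρ₂ :=
      (c2.sub g2).eventually (isOpen_ball.mem_nhds (by simp [hγ0, hρ₂]))
    have b4 : ∀ᶠ q : E × E × E in 𝓝 0, q.1 - ψ q.2.2 ∈ ball e ρ₂ :=
      (c1.sub g3).eventually (isOpen_ball.mem_nhds (by simp [hγ0, hρ₂]))
    have b5 : ∀ᶠ q : E × E × E in 𝓝 0, φ q.2.1 - ψ q.2.1 ∈ ball (e + e) ρ₃ :=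
      (a2.sub g2).eventually (isOpen_ball.mem_nhds (by simp [hα0, hγ0, hρ₃]))
    have b6 : ∀ᶠ q : E × E × E in 𝓝 0, φ q.2.1 - ψ q.2.2 ∈ ball (e + e) ρ₃ :=
      (a2.sub g3).eventually (isOpen_ball.mem_nhds (by simp [hα0, hγ0, hρ₃]))
    have b7 := c2.tendsto.eventually hcrit
    filter_upwards [b1, b2, b3, b4, b5, b6, b7] with q b1 b2 b3 b4 b5 b6 b7
    have t1 := T₁ _ b1 _ b2
    have t2 := T₂ _ b3 _ b4
    have t3 := T₃ _ b5 _ b6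
    rw [show q.1 - φ q.2.1 - (q.2.1 - φ q.2.1) = q.1 - q.2.1 by abel] at t1
    rw [show q.1 - ψ q.2.2 - (q.2.1 - ψ q.2.1) = (q.1 - q.2.1) - (ψ q.2.2 - ψ q.2.1) by abel] at t2
    rw [show φ q.2.1 - ψ q.2.2 - (φ q.2.1 - ψ q.2.1) = -(ψ q.2.2 - ψ q.2.1) by abel] at t3
    have := convex_ineq hL₁ hL₂ hL₃ (le_of_max_le_right hM) b7.1 b7.2 t1 t2 t3
    simp only [cR, uC]
    linarith

end Crest.Agent.R130
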