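import Mathlib
import Crest.Prelude.Def_MultiMarginal
import Crest.Agent.R130.Local2
import Crest.Agent.R130.Abstract

set_option autoImplicit false

open Set Filter Topology Function Metric
open scoped ContDiff RealInnerProductSpace ENNReal

namespace Crest.Agent.R130

set_option linter.unusedSectionVars false

open Crest.AnalysisR.OT

section Cost
variable {E : Type*} [NormedAddCommGroup E]

theorem pairCost_comm (s : ℝ) (x y : E) : pairCost s x y = pairCost s y x := by
  simp only [pairCost, norm_sub_rev]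

theorem tripleCost_cyc (s : ℝ) (x y w : E) : tripleCost s (x, y, w) = tripleCost s (y, w, x) := by
  simp only [tripleCost, pairCost_comm s y x, pairCost_comm s w x]; ring

theorem tripleCost_swap (s : ℝ) (x y w : E) : tripleCost s (x, y, w) = tripleCost s (x, w, y) := by
  simp only [tripleCost, pairCost_comm s w y]; ring

theorem continuous_pairCost (s : ℝ) : Continuous (fun p : E × E => pairCost s p.1 p.2) :=
  ENNReal.continuous_rpow_const.comp (ENNReal.continuous_ofReal.comp (by fun_prop))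

theorem continuous_tripleCost (s : ℝ) : Continuous (tripleCost (E := E) s) := by
  unfold tripleCost
  refine (Continuous.add ?_ ?_).add ?_
  · exact (continuous_pairCost s).comp (f := fun p : E × E × E => (p.1, p.2.1)) (by fun_prop)
  · exact (continuous_pairCost s).comp (f := fun p : E × E × E => (p.1, p.2.2)) (by fun_prop)
  · exact (continuous_pairCost s).comp (f := fun p : E × E × E => (p.2.1, p.2.2)) (by fun_prop)

theorem pairCost_self {s : ℝ} (hs : 0 < s) (x : E) : pairCost s x x = ⊤ := by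
  simp [pairCost, ENNReal.zero_rpow_of_neg (neg_lt_zero.2 hs)]

theorem pairCost_of_norm_one (s : ℝ) {x y : E} (h : ‖x - y‖ = 1) : pairCost s x y = 1 := by
  simp [pairCost, h]

theorem pairCost_ge {s : ℝ} (hs : 0 < s) {x y : E} (h : ‖x - y‖ ≤ 2) :
    ENNReal.ofReal (2 ^ (-s)) ≤ pairCost s x y := by
  rw [← ENNReal.ofReal_rpow_of_pos two_pos, pairCost, ENNReal.rpow_neg, ENNReal.rpow_neg,
    ENNReal.inv_le_inv]
  exact ENNReal.rpow_le_rpow (ENNReal.ofReal_le_ofReal h) hs.le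

theorem pairCost_gt {s : ℝ} (hs : 0 < s) {x y : E} (h : ‖x - y‖ < 2) :
    ENNReal.ofReal (2 ^ (-s)) < pairCost s x y := by
  rw [← ENNReal.ofReal_rpow_of_pos two_pos, pairCost, ENNReal.rpow_neg, ENNReal.rpow_neg,
    ENNReal.inv_lt_inv]
  exact ENNReal.rpow_lt_rpow ((ENNReal.ofReal_lt_ofReal_iff two_pos).2 h) hs

end Cost

variable {E : Type*} [NormedAddCommGroup E] [InnerProductSpace ℝ E]

theorem tripleCost_eq_ofReal (s : ℝ) {x y w : E} (h1 : x ≠ y) (h2 : x ≠ w) (h3 : y ≠ w) :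
    tripleCost s (x, y, w) = ENNReal.ofReal (cR s x y w) := by
  have p : ∀ a b : E, 0 ≤ hh s (a - b) := fun a b => Real.rpow_nonneg (norm_nonneg _) _
  simp only [tripleCost, pairCost, cR]
  rw [ENNReal.ofReal_add (add_nonneg (p _ _) (p _ _)) (p _ _), ENNReal.ofReal_add (p _ _) (p _ _),
    ENNReal.ofReal_rpow_of_pos (norm_pos_iff.2 (sub_ne_zero.2 h1)),
    ENNReal.ofReal_rpow_of_pos (norm_pos_iff.2 (sub_ne_zero.2 h2)),
    ENNReal.ofReal_rpow_of_pos (norm_pos_iff.2 (sub_ne_zero.2 h3))]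
  rfl

/-- Cluster centres. -/
def ctr (e : Bool → E) : Lab → E
  | Lab.z => 0
  | Lab.o k false => e k
  | Lab.o k true => -e k

/-- Potential values at the centres. -/
noncomputable def val0 (s : ℝ) : Lab → ℝ
  | Lab.z => 2
  | Lab.o _ _ => 2 ^ (-s) / 2

/-- The label triples of the contact set. -/
def Good (i j l : Lab) : Prop :=
  ∃ k b : Bool, (i = Lab.z ∧ j = Lab.o k b ∧ l = Lab.o k (!b)) ∨
    (j = Lab.z ∧ i = Lab.o k b ∧ l = Lab.o k (!b)) ∨
    (l = Lab.z ∧ i = Lab.o k b ∧ j = Lab.o k (!b))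

theorem norm_ctr {e : Bool → E} (he : ∀ k, ‖e k‖ = 1) (k b : Bool) :
    ‖ctr e (Lab.o k b)‖ = 1 := by
  cases b <;> simp [ctr, he]

theorem norm_ctr_sub_sq {e : Bool → E} (he : ∀ k, ‖e k‖ = 1) (ho : ⟪e false, e true⟫ = 0)
    (k b k' b' : Bool) :
    ‖ctr e (Lab.o k b) - ctr e (Lab.o k' b')‖ ^ 2 =
      if k = k' then (if b = b' then 0 else 4) else 2 := by
  have ho' : ⟪e true, e false⟫ = 0 := by rw [real_inner_comm]; exact ho
  rw [norm_sub_sq_real, norm_ctr he, norm_ctr he]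
  cases k <;> cases b <;> cases k' <;> cases b' <;>
    simp [ctr, inner_neg_left, inner_neg_right, ho, ho', he] <;> norm_num

theorem ctr_injective {e : Bool → E} (he : ∀ k, ‖e k‖ = 1) (ho : ⟪e false, e true⟫ = 0) :
    Injective (ctr e) := by
  intro i j hij
  rcases i with _ | ⟨k, b⟩ <;> rcases j with _ | ⟨k', b'⟩
  · rfl
  · have := norm_ctr he k' b'
    rw [← hij] at this; simp [ctr] at this
  · have := norm_ctr he k b
    rw [hij] at this; simp [ctr] at this
  · have := norm_ctr_sub_sq he ho k b k' b'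
    rw [hij] at this
    simp only [sub_self, norm_zero] at this
    split_ifs at this with h1 h2
    · rw [h1, h2]
    · norm_num at this
    · norm_num at this

theorem base_strict {s : ℝ} (hs : 0 < s) {e : Bool → E} (he : ∀ k, ‖e k‖ = 1)
    (ho : ⟪e false, e true⟫ = 0) {i j l : Lab} (h : ¬ Good i j l) :
    ENNReal.ofReal (val0 s i) + ENNReal.ofReal (val0 s j) + ENNReal.ofReal (val0 s l) <
      tripleCost s (ctr e i, ctr e j, ctr e l) := by
  have hβ : (0 : ℝ) < 2 ^ (-s) := Real.rpow_pos_of_pos two_pos _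
  have fin : ∀ a b c : ℝ, ENNReal.ofReal a + ENNReal.ofReal b + ENNReal.ofReal c < ⊤ :=
    fun a b c => by simp [ENNReal.add_lt_top]
  have hzo : ∀ k b, pairCost s (ctr e Lab.z) (ctr e (Lab.o k b)) = 1 := fun k b =>
    pairCost_of_norm_one s (by rw [ctr, zero_sub, norm_neg, norm_ctr he])
  have hoz : ∀ k b, pairCost s (ctr e (Lab.o k b)) (ctr e Lab.z) = 1 := fun k b => by
    rw [pairCost_comm, hzo]
  have hge : ∀ k b k' b', ENNReal.ofReal (2 ^ (-s)) ≤
      pairCost s (ctr e (Lab.o k b)) (ctr e (Lab.o k' b')) := fun k b k' b' =>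
    pairCost_ge hs ((norm_sub_le _ _).trans (by rw [norm_ctr he, norm_ctr he]; norm_num))
  have hgt : ∀ k b k' b', ¬ (k' = k ∧ b' = !b) → ENNReal.ofReal (2 ^ (-s)) <
      pairCost s (ctr e (Lab.o k b)) (ctr e (Lab.o k' b')) := fun k b k' b' hn => by
    refine pairCost_gt hs (lt_of_pow_lt_pow_left₀ 2 zero_le_two ?_)
    rw [norm_ctr_sub_sq he ho]
    cases k <;> cases b <;> cases k' <;> cases b' <;> simp at hn ⊢ <;> norm_num
  have half : ENNReal.ofReal (2 ^ (-s) / 2) + ENNReal.ofReal (2 ^ (-s) / 2) =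
      ENNReal.ofReal (2 ^ (-s)) := by
    rw [← ENNReal.ofReal_add (by positivity) (by positivity)]; congr 1; ring
  have two : ENNReal.ofReal 2 = 1 + 1 := by simp; norm_num
  rcases i with _ | ⟨k₁, b₁⟩ <;> rcases j with _ | ⟨k₂, b₂⟩ <;> rcases l with _ | ⟨k₃, b₃⟩
  · simp only [tripleCost, pairCost_self hs, top_add]; exact fin _ _ _
  · simp only [tripleCost, pairCost_self hs, top_add]; exact fin _ _ _
  · simp only [tripleCost, pairCost_self hs, top_add, add_top]; exact fin _ _ _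
  · simp only [tripleCost, hzo, val0]
    rw [add_assoc, half, two]
    refine ENNReal.add_lt_add_left (by simp) (hgt _ _ _ _ ?_)
    rintro ⟨rfl, rfl⟩
    exact h ⟨_, _, Or.inl ⟨rfl, rfl, rfl⟩⟩
  · simp only [tripleCost, pairCost_self hs, add_top]; exact fin _ _ _
  · simp only [tripleCost, hzo, hoz, val0]
    rw [add_right_comm, half, two, add_right_comm 1 _ 1, add_comm]
    refine ENNReal.add_lt_add_left (by simp) (hgt _ _ _ _ ?_)
    rintro ⟨rfl, rfl⟩
    exact h ⟨_, _, Or.inr (Or.inl ⟨rfl, rfl, rfl⟩)⟩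
  · simp only [tripleCost, hoz, val0]
    rw [half, two, add_assoc _ 1 1]
    refine ENNReal.add_lt_add_right (by simp) (hgt _ _ _ _ ?_)
    rintro ⟨rfl, rfl⟩
    exact h ⟨_, _, Or.inr (Or.inr ⟨rfl, rfl, rfl⟩)⟩
  · simp only [tripleCost, val0]
    have hl : ENNReal.ofReal (2 ^ (-s) / 2) < ENNReal.ofReal (2 ^ (-s)) :=
      (ENNReal.ofReal_lt_ofReal_iff hβ).2 (by linarith)
    exact ENNReal.add_lt_add (ENNReal.add_lt_add (hl.trans_le (hge _ _ _ _))
      (hl.trans_le (hge _ _ _ _))) (hl.trans_le (hge _ _ _ _))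

theorem eventually_ball1 {P : E → Prop} (h : ∀ᶠ x in 𝓝 (0 : E), P x) :
    ∀ᶠ r in 𝓝 (0 : ℝ), ∀ x ∈ closedBall (0 : E) r, P x :=
  (eventually_closedBall_subset h).mono fun _ hr _ hx => hr hx

theorem eventually_ball3 {P : E × E × E → Prop} (h : ∀ᶠ q in 𝓝 (0 : E × E × E), P q) :
    ∀ᶠ r in 𝓝 (0 : ℝ), ∀ x ∈ closedBall (0 : E) r, ∀ y ∈ closedBall (0 : E) r,
      ∀ w ∈ closedBall (0 : E) r, P (x, y, w) :=
  (eventually_closedBall_subset h).mono fun r hr x hx y hy w hw => hr (by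
    simp only [mem_closedBall, dist_zero_right, Prod.norm_def, max_le_iff] at hx hy hw ⊢
    exact ⟨hx, hy, hw⟩)

variable [FiniteDimensional ℝ E]

theorem global_main {s : ℝ} (hs : 0 < s) {e : Bool → E} (he : ∀ k, ‖e k‖ = 1)
    (ho : ⟪e false, e true⟫ = 0) :
    ∃ (φ : Lab → OpenPartialHomeomorph E E) (v : Lab → E → ℝ) (r : ℝ), 0 < r ∧
      (∀ x, φ Lab.z x = x) ∧
      (∀ i, ContDiffOn ℝ ∞ (φ i) (φ i).source) ∧
      (∀ i, ContDiffOn ℝ ∞ (φ i).symm (φ i).target) ∧
      (∀ i, closedBall (0 : E) r ⊆ (φ i).source) ∧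
      (∀ i, ContinuousOn (v i) (closedBall (0 : E) r)) ∧
      (∀ i j, i ≠ j → ∀ x ∈ closedBall (0 : E) r, ∀ y ∈ closedBall (0 : E) r, φ i x ≠ φ j y) ∧
      (∀ i j l, ∀ x ∈ closedBall (0 : E) r, ∀ y ∈ closedBall (0 : E) r,
        ∀ w ∈ closedBall (0 : E) r,
        ENNReal.ofReal (v i x) + ENNReal.ofReal (v j y) + ENNReal.ofReal (v l w) ≤
          tripleCost s (φ i x, φ j y, φ l w)) ∧
      (∀ j l, ∀ x ∈ closedBall (0 : E) r, ∀ y ∈ closedBall (0 : E) r,
        ∀ w ∈ closedBall (0 : E) r, tripleCost s (φ Lab.z x, φ j y, φ l w) ≤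
          ENNReal.ofReal (v Lab.z x) + ENNReal.ofReal (v j y) + ENNReal.ofReal (v l w) →
          j ≠ Lab.z ∧ y = x) ∧
      (∀ k, ∀ x ∈ closedBall (0 : E) r,
        tripleCost s (φ Lab.z x, φ (Lab.o k false) x, φ (Lab.o k true) x) =
          ENNReal.ofReal (v Lab.z x) + ENNReal.ofReal (v (Lab.o k false) x) +
            ENNReal.ofReal (v (Lab.o k true) x)) := by
  choose M₀ hM₀ using fun k => local_main hs (he k)
  set M := max (M₀ false) (M₀ true)
  have hM : ∀ k, M₀ k ≤ M := fun k => by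
    cases k
    · exact le_max_left _ _
    · exact le_max_right _ _
  choose α γ vA vC hα0 hγ0 hαe hγe hα1 hα2 hγ1 hγ2 hvA hvC hvA0 hvC0 heq hineq using
    fun k => hM₀ k M (hM k)
  obtain ⟨φ, φz, φa, φc⟩ : ∃ φ : Lab → OpenPartialHomeomorph E E,
      φ Lab.z = OpenPartialHomeomorph.refl E ∧ (∀ k, φ (Lab.o k false) = α k) ∧
        ∀ k, φ (Lab.o k true) = γ k :=
    ⟨fun i => match i with
      | Lab.z => OpenPartialHomeomorph.refl E
      | Lab.o k false => α k
      | Lab.o k true => γ k, rfl, fun _ => rfl, fun _ => rfl⟩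
  obtain ⟨v, vz, va, vc⟩ : ∃ v : Lab → E → ℝ,
      (v Lab.z = fun x => 2 - M / 2 * ‖x‖ ^ 2) ∧ (∀ k, v (Lab.o k false) = vA k) ∧
        ∀ k, v (Lab.o k true) = vC k :=
    ⟨fun i => match i with
      | Lab.z => fun x => 2 - M / 2 * ‖x‖ ^ 2
      | Lab.o k false => vA k
      | Lab.o k true => vC k, rfl, fun _ => rfl, fun _ => rfl⟩
  have hφ0 : ∀ i, (0 : E) ∈ (φ i).source := by
    rintro (_ | ⟨k, _ | _⟩)
    · rw [φz]; exact mem_univ _
    · rw [φa]; exact hα0 k
    · rw [φc]; exact hγ0 k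
  have hφc : ∀ i, φ i 0 = ctr e i := by
    rintro (_ | ⟨k, _ | _⟩)
    · rw [φz]; rfl
    · rw [φa]; exact hαe k
    · rw [φc]; exact hγe k
  have hv0 : ∀ i, v i 0 = val0 s i := by
    rintro (_ | ⟨k, _ | _⟩)
    · simp [vz, val0]
    · rw [va]; exact hvA0 k
    · rw [vc]; exact hvC0 k
  have hvc : ∀ i, ∀ᶠ x in 𝓝 (0 : E), ContinuousAt (v i) x := by
    rintro (_ | ⟨k, _ | _⟩)
    · exact Eventually.of_forall fun x => by rw [vz]; fun_prop
    · rw [va]; exact hvA k
    · rw [vc]; exact hvC k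
  have hvpos : ∀ i, ∀ᶠ x in 𝓝 (0 : E), 0 < v i x := by
    intro i
    refine (hvc i).self_of_nhds.eventually (lt_mem_nhds ?_)
    rw [hv0]
    rcases i with _ | ⟨k, b⟩
    · exact two_pos
    · exact half_pos (Real.rpow_pos_of_pos two_pos _)
  have hφcont : ∀ i, ContinuousAt (φ i) 0 := fun i => (φ i).continuousAt (hφ0 i)
  have c1 : ∀ {β : Type} [TopologicalSpace β] {g : E → β}, ContinuousAt g 0 →
      ContinuousAt (fun q : E × E × E => g q.1) 0 :=
    fun hg => ContinuousAt.comp_of_eq hg continuousAt_fst rfl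
  have c2 : ∀ {β : Type} [TopologicalSpace β] {g : E → β}, ContinuousAt g 0 →
      ContinuousAt (fun q : E × E × E => g q.2.1) 0 :=
    fun hg => ContinuousAt.comp_of_eq hg continuousAt_snd.fst rfl
  have c3 : ∀ {β : Type} [TopologicalSpace β] {g : E → β}, ContinuousAt g 0 →
      ContinuousAt (fun q : E × E × E => g q.2.2) 0 :=
    fun hg => ContinuousAt.comp_of_eq hg continuousAt_snd.snd rfl
  have d1 : ∀ {g : E → E}, ContinuousAt g 0 → ContinuousAt (fun q : E × E × E => g q.1) 0 :=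
    fun hg => ContinuousAt.comp_of_eq hg continuousAt_fst rfl
  have d2 : ∀ {g : E → E}, ContinuousAt g 0 → ContinuousAt (fun q : E × E × E => g q.2.1) 0 :=
    fun hg => ContinuousAt.comp_of_eq hg continuousAt_snd.fst rfl
  have d3 : ∀ {g : E → E}, ContinuousAt g 0 → ContinuousAt (fun q : E × E × E => g q.2.2) 0 :=
    fun hg => ContinuousAt.comp_of_eq hg continuousAt_snd.snd rfl
  have E1 : ∀ᶠ r in 𝓝 (0 : ℝ), ∀ i, ∀ x ∈ closedBall (0 : E) r, x ∈ (φ i).source :=
    eventually_all.2 fun i => eventually_ball1 ((φ i).open_source.mem_nhds (hφ0 i))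
  have E2 : ∀ᶠ r in 𝓝 (0 : ℝ), ∀ i, ∀ x ∈ closedBall (0 : E) r, ContinuousAt (v i) x :=
    eventually_all.2 fun i => eventually_ball1 (hvc i)
  have E2' : ∀ᶠ r in 𝓝 (0 : ℝ), ∀ i, ∀ x ∈ closedBall (0 : E) r, 0 < v i x :=
    eventually_all.2 fun i => eventually_ball1 (hvpos i)
  have E3 : ∀ᶠ r in 𝓝 (0 : ℝ), ∀ i j, ∀ x ∈ closedBall (0 : E) r, ∀ y ∈ closedBall (0 : E) r,
      ∀ w ∈ closedBall (0 : E) r, i ≠ j → φ i x ≠ φ j y := by
    refine eventually_all.2 fun i => eventually_all.2 fun j =>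
      eventually_ball3 (P := fun q => i ≠ j → φ i q.1 ≠ φ j q.2.1) ?_
    by_cases hij : i = j
    · exact Eventually.of_forall fun q h => absurd hij h
    · have a : ContinuousAt (fun q : E × E × E => φ i q.1 - φ j q.2.1) 0 :=
        (d1 (hφcont i)).sub (d2 (hφcont j))
      have b : φ i 0 - φ j 0 ≠ 0 := by
        rw [hφc, hφc, sub_ne_zero]
        exact fun h => hij (ctr_injective he ho h)
      filter_upwards [a.eventually_ne b] with q hq _
      exact sub_ne_zero.1 hq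
  have E4 : ∀ᶠ r in 𝓝 (0 : ℝ), ∀ k, ∀ x ∈ closedBall (0 : E) r, ∀ y ∈ closedBall (0 : E) r,
      ∀ w ∈ closedBall (0 : E) r, (2 - M / 2 * ‖x‖ ^ 2) + vA k y + vC k w +
        (‖x - y‖ ^ 2 + ‖γ k w - γ k y‖ ^ 2) ≤ cR s x (α k y) (γ k w) :=
    eventually_all.2 fun k => eventually_ball3 (hineq k)
  have E5 : ∀ᶠ r in 𝓝 (0 : ℝ), ∀ i j l, ∀ x ∈ closedBall (0 : E) r, ∀ y ∈ closedBall (0 : E) r,
      ∀ w ∈ closedBall (0 : E) r, ¬ Good i j l →
        ENNReal.ofReal (v i x) + ENNReal.ofReal (v j y) + ENNReal.ofReal (v l w) <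
          tripleCost s (φ i x, φ j y, φ l w) := by
    refine eventually_all.2 fun i => eventually_all.2 fun j => eventually_all.2 fun l =>
      eventually_ball3 (P := fun q => ¬ Good i j l →
        ENNReal.ofReal (v i q.1) + ENNReal.ofReal (v j q.2.1) + ENNReal.ofReal (v l q.2.2) <
          tripleCost s (φ i q.1, φ j q.2.1, φ l q.2.2)) ?_
    by_cases hg : Good i j l
    · exact Eventually.of_forall fun q h => absurd hg h
    · have a : ContinuousAt (fun q : E × E × E =>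
          ENNReal.ofReal (v i q.1) + ENNReal.ofReal (v j q.2.1) + ENNReal.ofReal (v l q.2.2)) 0 :=
        ((c1 (g := fun x => ENNReal.ofReal (v i x))
          (ENNReal.continuous_ofReal.continuousAt.comp (hvc i).self_of_nhds)).add
          (c2 (g := fun x => ENNReal.ofReal (v j x))
          (ENNReal.continuous_ofReal.continuousAt.comp (hvc j).self_of_nhds))).add
          (c3 (g := fun x => ENNReal.ofReal (v l x))
          (ENNReal.continuous_ofReal.continuousAt.comp (hvc l).self_of_nhds))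
      have b : ContinuousAt (fun q : E × E × E =>
          tripleCost s (φ i q.1, φ j q.2.1, φ l q.2.2)) 0 :=
        (continuous_tripleCost s).continuousAt.comp
          ((d1 (hφcont i)).prodMk ((d2 (hφcont j)).prodMk (d3 (hφcont l))))
      have := a.eventually_lt b (by
        simp only [Prod.fst_zero, Prod.snd_zero, hv0, hφc]
        exact base_strict hs he ho hg)
      filter_upwards [this] with q hq _ using hq
  obtain ⟨r, ⟨⟨⟨⟨⟨F1, F2⟩, F2'⟩, F3⟩, F4⟩, F5⟩, hr⟩ :=
    ((((((((E1.and E2).and E2').and E3).and E4).and E5).filter_mono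
      (nhdsWithin_le_nhds (s := Ioi (0 : ℝ)))).and self_mem_nhdsWithin)).exists
  have hsep : ∀ i j, i ≠ j → ∀ x ∈ closedBall (0 : E) r, ∀ y ∈ closedBall (0 : E) r,
      φ i x ≠ φ j y := fun i j hij x hx y hy => F3 i j x hx y hy x hx hij
  have hsum : ∀ i j l, ∀ x ∈ closedBall (0 : E) r, ∀ y ∈ closedBall (0 : E) r,
      ∀ w ∈ closedBall (0 : E) r,
      ENNReal.ofReal (v i x) + ENNReal.ofReal (v j y) + ENNReal.ofReal (v l w) =
        ENNReal.ofReal (v i x + v j y + v l w) := fun i j l x hx y hy w hw => by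
    rw [ENNReal.ofReal_add (add_pos (F2' i x hx) (F2' j y hy)).le (F2' l w hw).le,
      ENNReal.ofReal_add (F2' i x hx).le (F2' j y hy).le]
  have hcost : ∀ k, ∀ x ∈ closedBall (0 : E) r, ∀ y ∈ closedBall (0 : E) r,
      ∀ w ∈ closedBall (0 : E) r,
      tripleCost s (φ Lab.z x, φ (Lab.o k false) y, φ (Lab.o k true) w) =
        ENNReal.ofReal (cR s x (α k y) (γ k w)) := fun k x hx y hy w hw => by
    rw [tripleCost_eq_ofReal s (hsep Lab.z (Lab.o k false) (by simp) x hx y hy)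
      (hsep Lab.z (Lab.o k true) (by simp) x hx w hw)
      (hsep (Lab.o k false) (Lab.o k true) (by simp) y hy w hw), φz, φa, φc]
    rfl
  have G1 : ∀ k, ∀ x ∈ closedBall (0 : E) r, ∀ y ∈ closedBall (0 : E) r,
      ∀ w ∈ closedBall (0 : E) r,
      ENNReal.ofReal (v Lab.z x) + ENNReal.ofReal (v (Lab.o k false) y) +
        ENNReal.ofReal (v (Lab.o k true) w) ≤
      tripleCost s (φ Lab.z x, φ (Lab.o k false) y, φ (Lab.o k true) w) := by
    intro k x hx y hy w hw
    rw [hsum _ _ _ x hx y hy w hw, hcost k x hx y hy w hw]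
    refine ENNReal.ofReal_le_ofReal ?_
    have := F4 k x hx y hy w hw
    have h1 := sq_nonneg ‖x - y‖
    have h2 := sq_nonneg ‖γ k w - γ k y‖
    rw [vz, va, vc]
    linarith
  have G2 : ∀ k, ∀ x ∈ closedBall (0 : E) r, ∀ y ∈ closedBall (0 : E) r,
      ∀ w ∈ closedBall (0 : E) r,
      tripleCost s (φ Lab.z x, φ (Lab.o k false) y, φ (Lab.o k true) w) ≤
      ENNReal.ofReal (v Lab.z x) + ENNReal.ofReal (v (Lab.o k false) y) +
        ENNReal.ofReal (v (Lab.o k true) w) → y = x ∧ w = x := by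
    intro k x hx y hy w hw h
    rw [hsum _ _ _ x hx y hy w hw, hcost k x hx y hy w hw, ENNReal.ofReal_le_ofReal_iff
      (add_pos (add_pos (F2' _ x hx) (F2' _ y hy)) (F2' _ w hw)).le] at h
    have := F4 k x hx y hy w hw
    have h1 := sq_nonneg ‖x - y‖
    have h2 := sq_nonneg ‖γ k w - γ k y‖
    rw [vz, va, vc] at h
    have h3 : x = y := by
      have : ‖x - y‖ ^ 2 = 0 := by linarith
      simpa [sub_eq_zero] using this
    have h4 : γ k w = γ k y := by
      have : ‖γ k w - γ k y‖ ^ 2 = 0 := by linarith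
      simpa [sub_eq_zero] using this
    have h5 : w = y := (γ k).injOn (φc k ▸ F1 (Lab.o k true) w hw)
      (φc k ▸ F1 (Lab.o k true) y hy) h4
    exact ⟨h3.symm, h5.trans h3.symm⟩
  have G3 : ∀ k b, ∀ x ∈ closedBall (0 : E) r, ∀ y ∈ closedBall (0 : E) r,
      ∀ w ∈ closedBall (0 : E) r,
      ENNReal.ofReal (v Lab.z x) + ENNReal.ofReal (v (Lab.o k b) y) +
        ENNReal.ofReal (v (Lab.o k (!b)) w) ≤
      tripleCost s (φ Lab.z x, φ (Lab.o k b) y, φ (Lab.o k (!b)) w) := by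
    intro k b x hx y hy w hw
    cases b
    · exact G1 k x hx y hy w hw
    · rw [tripleCost_swap, add_right_comm]
      exact G1 k x hx w hw y hy
  refine ⟨φ, v, r, hr, fun x => by rw [φz]; rfl, ?_, ?_, fun i x hx => F1 i x hx,
    fun i x hx => (F2 i x hx).continuousWithinAt, hsep, ?_, ?_, ?_⟩
  · rintro (_ | ⟨k, _ | _⟩)
    · rw [φz]; exact contDiffOn_id
    · rw [φa]; exact hα1 k
    · rw [φc]; exact hγ1 k
  · rintro (_ | ⟨k, _ | _⟩)
    · rw [φz]; exact contDiffOn_id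
    · rw [φa]; exact hα2 k
    · rw [φc]; exact hγ2 k
  · intro i j l x hx y hy w hw
    by_cases hg : Good i j l
    · obtain ⟨k, b, ⟨rfl, rfl, rfl⟩ | ⟨rfl, rfl, rfl⟩ | ⟨rfl, rfl, rfl⟩⟩ := hg
      · exact G3 k b x hx y hy w hw
      · rw [tripleCost_cyc, tripleCost_swap, add_comm (ENNReal.ofReal (v (Lab.o k b) x))]
        exact G3 k b y hy x hx w hw
      · rw [← tripleCost_cyc, add_rotate, add_rotate]
        exact G3 k b w hw x hx y hy
    · exact (F5 i j l x hx y hy w hw hg).le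
  · intro j l x hx y hy w hw h
    by_cases hg : Good Lab.z j l
    · obtain ⟨k, b, ⟨-, rfl, rfl⟩ | ⟨-, h', -⟩ | ⟨-, h', -⟩⟩ := hg
      · refine ⟨by simp, ?_⟩
        cases b
        · exact (G2 k x hx y hy w hw h).1
        · rw [tripleCost_swap, add_right_comm] at h
          exact (G2 k x hx w hw y hy h).2
      · cases h'
      · cases h'
    · exact absurd h (not_le.2 (F5 _ j l x hx y hy w hw hg))
  · intro k x hx
    rw [hsum _ _ _ x hx x hx x hx, hcost k x hx x hx x hx, heq k x, vz, va, vc]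

end Crest.Agent.R130
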