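import Mathlib

set_option autoImplicit false

open MeasureTheory ProbabilityTheory Set Filter Topology
open scoped ENNReal unitInterval

namespace Crest.Agent.R130

/-- The cdf of an atomless probability measure on the line pushes it to Lebesgue measure. -/
theorem map_cdf_eq (μ : Measure ℝ) [IsProbabilityMeasure μ] (h0 : ∀ x, μ {x} = 0) :
    μ.map (fun x => (⟨cdf μ x, cdf_nonneg μ x, cdf_le_one μ x⟩ : I)) = volume := by
  have hmeas : Measurable (fun x => (⟨cdf μ x, cdf_nonneg μ x, cdf_le_one μ x⟩ : I)) :=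
    (monotone_cdf μ).measurable.subtype_mk
  have hcont : Continuous (cdf μ) := by
    rw [continuous_iff_continuousAt]
    intro x
    have h1 : (cdf μ).measure {x} = 0 := by rw [measure_cdf]; exact h0 x
    rw [StieltjesFunction.measure_singleton, ENNReal.ofReal_eq_zero] at h1
    have h2 : Function.leftLim (cdf μ) x = cdf μ x :=
      le_antisymm ((monotone_cdf μ).leftLim_le le_rfl) (by linarith)
    rw [(monotone_cdf μ).continuousAt_iff_leftLim_eq_rightLim, h2, (cdf μ).rightLim_eq]
  refine Measure.ext_of_Iic _ _ fun t => ?_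
  rw [Measure.map_apply hmeas measurableSet_Iic, unitInterval.volume_Iic]
  set A : Set ℝ := {x | cdf μ x ≤ (t : ℝ)} with hA
  have hpre : (fun x => (⟨cdf μ x, cdf_nonneg μ x, cdf_le_one μ x⟩ : I)) ⁻¹' Iic t = A := by
    ext x; simp [hA, ← Subtype.coe_le_coe]
  rw [hpre]
  rcases eq_or_lt_of_le t.2.2 with h1 | h1
  · have : A = univ := by
      ext x; simp [hA, h1, cdf_le_one]
    rw [this, h1]; simp
  · have hbdd : BddAbove A := by
      have := (tendsto_cdf_atTop μ).eventually (lt_mem_nhds h1)
      obtain ⟨b, hb⟩ := eventually_atTop.1 this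
      refine ⟨b, fun x hx => ?_⟩
      by_contra hxb
      exact absurd (hb x (le_of_not_ge hxb)) (not_lt.2 hx)
    rcases A.eq_empty_or_nonempty with hE | hne
    · have ht : (t : ℝ) = 0 := by
        by_contra hne
        have hpos : (0 : ℝ) < t := lt_of_le_of_ne t.2.1 (Ne.symm hne)
        obtain ⟨x, hx⟩ := ((tendsto_cdf_atBot μ).eventually (gt_mem_nhds hpos)).exists
        have : x ∈ A := hx.le
        rw [hE] at this; exact this
      rw [hE, ht]; simp
    · have hclosed : IsClosed A := isClosed_le hcont continuous_const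
      have hmem : sSup A ∈ A := hclosed.csSup_mem hne hbdd
      have hAI : A = Iic (sSup A) := by
        ext x
        exact ⟨fun hx => le_csSup hbdd hx, fun hx => le_trans (monotone_cdf μ hx) hmem⟩
      have hge : (t : ℝ) ≤ cdf μ (sSup A) := by
        have h2 : Tendsto (cdf μ) (𝓝[>] (sSup A)) (𝓝 (cdf μ (sSup A))) :=
          hcont.continuousAt.tendsto.mono_left nhdsWithin_le_nhds
        refine ge_of_tendsto h2 ?_
        filter_upwards [self_mem_nhdsWithin] with x hx
        by_contra hlt
        exact absurd (le_csSup hbdd (le_of_lt (not_le.1 hlt) : x ∈ A)) (not_le.2 hx)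
      rw [hAI, ← ofReal_cdf, le_antisymm hmem hge]

/-- Transport of an atomless probability measure onto any probability measure. -/
theorem exists_map_eq_prob {Ω Ω' : Type*} [MeasurableSpace Ω] [StandardBorelSpace Ω]
    [MeasurableSpace Ω'] [StandardBorelSpace Ω'] [Nonempty Ω']
    (m₁ : Measure Ω) [IsProbabilityMeasure m₁] (h0 : ∀ x, m₁ {x} = 0)
    (m₂ : Measure Ω') [IsProbabilityMeasure m₂] :
    ∃ S : Ω → Ω', Measurable S ∧ m₁.map S = m₂ := by
  have hθ := measurableEmbedding_embeddingReal Ω
  set θ := embeddingReal Ω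
  have : IsProbabilityMeasure (m₁.map θ) := Measure.isProbabilityMeasure_map hθ.measurable.aemeasurable
  have h0' : ∀ x, (m₁.map θ) {x} = 0 := by
    intro x
    rw [Measure.map_apply hθ.measurable (measurableSet_singleton x)]
    rcases (θ ⁻¹' {x}).eq_empty_or_nonempty with h | ⟨y, hy⟩
    · rw [h]; simp
    · have : θ ⁻¹' {x} = {y} := by
        ext z
        simp only [mem_preimage, mem_singleton_iff] at hy ⊢
        exact ⟨fun hz => hθ.injective (hz.trans hy.symm), fun hz => hz ▸ hy⟩
      rw [this]; exact h0 y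
  obtain ⟨f, hf, hfm⟩ := Measure.exists_measurable_map_eq m₂
  have hU := map_cdf_eq (m₁.map θ) h0'
  have hmeas : Measurable
      (fun x => (⟨cdf (m₁.map θ) x, cdf_nonneg _ x, cdf_le_one _ x⟩ : I)) :=
    (monotone_cdf _).measurable.subtype_mk
  refine ⟨f ∘ (fun x => (⟨cdf (m₁.map θ) x, cdf_nonneg _ x, cdf_le_one _ x⟩ : I)) ∘ θ,
    hf.comp (hmeas.comp hθ.measurable), ?_⟩
  rw [← Measure.map_map hf (hmeas.comp hθ.measurable), ← Measure.map_map hmeas hθ.measurable, hU,
    hfm]

/-- Transport of an atomless finite measure onto any finite measure of the same mass. -/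
theorem exists_map_eq_finite {Ω Ω' : Type*} [MeasurableSpace Ω] [StandardBorelSpace Ω]
    [MeasurableSpace Ω'] [StandardBorelSpace Ω'] [Nonempty Ω']
    (m₁ : Measure Ω) [IsFiniteMeasure m₁] (h0 : ∀ x, m₁ {x} = 0)
    (m₂ : Measure Ω') (hm : m₁ univ = m₂ univ) :
    ∃ S : Ω → Ω', Measurable S ∧ m₁.map S = m₂ := by
  by_cases hz : m₁ univ = 0
  · refine ⟨fun _ => Classical.arbitrary Ω', measurable_const, ?_⟩
    have h1 : m₁ = 0 := Measure.measure_univ_eq_zero.1 hz
    have h2 : m₂ = 0 := Measure.measure_univ_eq_zero.1 (hm ▸ hz)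
    rw [h1, h2]; simp
  · have hfin : m₁ univ ≠ ⊤ := measure_ne_top _ _
    have : IsProbabilityMeasure ((m₁ univ)⁻¹ • m₁) :=
      ⟨by simp [ENNReal.inv_mul_cancel hz hfin]⟩
    have : IsProbabilityMeasure ((m₁ univ)⁻¹ • m₂) :=
      ⟨by simp [← hm, ENNReal.inv_mul_cancel hz hfin]⟩
    obtain ⟨S, hS, hSm⟩ := exists_map_eq_prob ((m₁ univ)⁻¹ • m₁) (by intro x; simp [h0 x])
      ((m₁ univ)⁻¹ • m₂)
    refine ⟨S, hS, ?_⟩
    rw [Measure.map_smul] at hSm
    have := congrArg (fun m => (m₁ univ) • m) hSm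
    simpa [smul_smul, ENNReal.mul_inv_cancel hz hfin] using this

/-- Splitting: a map to `β × Ω` with a prescribed law whose second marginal is `ν`, moving points
by at most `δ`. -/
theorem exists_split {Ω β : Type*} [MetricSpace Ω] [TopologicalSpace.SeparableSpace Ω]
    [MeasurableSpace Ω] [BorelSpace Ω] [StandardBorelSpace Ω] [Nonempty Ω]
    [MeasurableSpace β] [StandardBorelSpace β] [Nonempty β]
    (ν : Measure Ω) [IsFiniteMeasure ν] (h0 : ∀ x, ν {x} = 0)
    (m : Measure (β × Ω)) (hm : m.map Prod.snd = ν) {δ : ℝ} (hδ : 0 < δ) :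
    ∃ S : Ω → β × Ω, Measurable S ∧ ν.map S = m ∧ ∀ᵐ z ∂ν, dist (S z).2 z ≤ δ := by
  obtain ⟨As, hAm, hAb, hAd, hAu, hAp⟩ := SeparableSpace.exists_measurable_partition_diam_le Ω hδ
  have key : ∀ j, ∃ S : Ω → β × Ω, Measurable S ∧
      (ν.restrict (As j)).map S = m.restrict (Prod.snd ⁻¹' As j) := by
    intro j
    refine exists_map_eq_finite _ (fun x => ?_) _ ?_
    · exact le_antisymm ((Measure.restrict_le_self _).trans (h0 x).le) zero_le
    · rw [Measure.restrict_apply_univ, Measure.restrict_apply_univ, ← hm,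
        Measure.map_apply measurable_snd (hAm j)]
  choose S hS hSm using key
  have hex : ∀ z, ∃ j, z ∈ As j := fun z => by
    have : z ∈ ⋃ n, As n := hAu ▸ mem_univ z
    simpa using this
  classical
  have hfind : ∀ z j, z ∈ As j → Nat.find (hex z) = j := by
    intro z j hz
    by_contra hne
    exact (Set.disjoint_left.1 (hAp hne) (Nat.find_spec (hex z))) hz
  have hmeas : Measurable (fun z => S (Nat.find (hex z)) z) :=
    Measurable.find (p := fun n z => z ∈ As n) hS hAm hex
  have hrestr : ∀ j, (ν.restrict (As j)).map (fun z => S (Nat.find (hex z)) z) =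
      m.restrict (Prod.snd ⁻¹' As j) := by
    intro j
    rw [← hSm j]
    refine Measure.map_congr ?_
    filter_upwards [ae_restrict_mem (hAm j)] with z hz
    rw [hfind z j hz]
  have hν : ν = Measure.sum (fun j => ν.restrict (As j)) := by
    rw [← Measure.restrict_iUnion hAp hAm, hAu, Measure.restrict_univ]
  refine ⟨fun z => S (Nat.find (hex z)) z, hmeas, ?_, ?_⟩
  · have hm' : m = Measure.sum (fun j => m.restrict (Prod.snd ⁻¹' As j)) := by
      rw [← Measure.restrict_iUnion (fun i j hij => (hAp hij).preimage _)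
        (fun j => measurable_snd (hAm j)), ← preimage_iUnion, hAu, preimage_univ,
        Measure.restrict_univ]
    rw [hm']
    conv_lhs => rw [hν]
    rw [Measure.map_sum hmeas.aemeasurable]
    simp_rw [hrestr]
  · rw [hν, Measure.ae_sum_iff]
    intro j
    have h1 : ∀ᵐ y ∂(m.restrict (Prod.snd ⁻¹' As j)), y.2 ∈ As j :=
      ae_restrict_mem (measurable_snd (hAm j))
    rw [← hrestr j] at h1
    have h2 := ae_of_ae_map hmeas.aemeasurable h1
    filter_upwards [h2, ae_restrict_mem (hAm j)] with z hz1 hz2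
    exact (Metric.dist_le_diam_of_mem (hAb j) hz1 hz2).trans (hAd j)

end Crest.Agent.R130
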