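import Mathlib
import Crest.Prelude.Def_MultiMarginal
import Crest.Agent.R130.Global
import Crest.Agent.R130.Density
import Crest.Agent.R130.Split

set_option autoImplicit false

open MeasureTheory Set Filter Topology Function Metric
open scoped ContDiff RealInnerProductSpace ENNReal NNReal

namespace Crest.Agent.R130

set_option linter.unusedSectionVars false

open Crest.AnalysisR.OT

variable {E : Type*} [NormedAddCommGroup E] [InnerProductSpace ℝ E] [FiniteDimensional ℝ E]
  [MeasurableSpace E] [BorelSpace E]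

theorem exists_bump {r : ℝ} (hr : 0 < r) :
    ∃ f : E → ℝ, ContDiff ℝ ∞ f ∧ (∀ x, 0 ≤ f x) ∧ support f ⊆ closedBall (0 : E) r ∧
      ∫⁻ x, ENNReal.ofReal (f x ^ 2) = 1 := by
  let b : ContDiffBump (0 : E) := ⟨r / 2, r, half_pos hr, half_lt_self hr⟩
  have hc : Continuous (fun x => b x ^ 2) := b.continuous.pow 2
  have hcs : HasCompactSupport (fun x => b x ^ 2) :=
    b.hasCompactSupport.comp_left (g := fun t : ℝ => t ^ 2) (by simp)
  have hpos : 0 < ∫ x, b x ^ 2 :=
    hc.integral_pos_of_hasCompactSupport_nonneg_nonzero hcs (fun x => sq_nonneg _) (x := 0)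
      (by rw [b.one_of_mem_closedBall (mem_closedBall_self b.rIn_pos.le)]; simp)
  set J := ∫ x, b x ^ 2
  refine ⟨fun x => (Real.sqrt J)⁻¹ * b x, contDiff_const.mul b.contDiff,
    fun x => mul_nonneg (by positivity) b.nonneg, fun x hx => ?_, ?_⟩
  · have : x ∈ support b := right_ne_zero_of_mul hx
    rw [b.support_eq] at this
    exact ball_subset_closedBall this
  · have e : ∀ x, ((Real.sqrt J)⁻¹ * b x) ^ 2 = J⁻¹ * b x ^ 2 := fun x => by
      rw [mul_pow, inv_pow, Real.sq_sqrt hpos.le]
    simp_rw [e]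
    rw [← ofReal_integral_eq_lintegral_ofReal ((hc.integrable_of_hasCompactSupport hcs).const_mul _)
      (Eventually.of_forall fun x => by positivity), integral_const_mul,
      inv_mul_cancel₀ hpos.ne', ENNReal.ofReal_one]

theorem final_main {s : ℝ} (hs : 0 < s) {e : Bool → E} (he : ∀ k, ‖e k‖ = 1)
    (ho : ⟪e false, e true⟫ = 0) :
    ∃ ρ : E → ℝ, (∀ x, 0 ≤ ρ x) ∧ ContDiff ℝ ∞ ρ ∧ HasCompactSupport ρ ∧
      ContDiff ℝ ∞ (fun x => Real.sqrt (ρ x)) ∧ ∫ x, ρ x = 1 ∧
      ∃ π₀ : Measure (E × E × E),
        IsCoupling₃ (measOfDensity ρ) π₀ ∧ ∫⁻ p, tripleCost s p ∂π₀ < ⊤ ∧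
        (∀ π : Measure (E × E × E), IsCoupling₃ (measOfDensity ρ) π →
          ∫⁻ p, tripleCost s p ∂π₀ ≤ ∫⁻ p, tripleCost s p ∂π) ∧
        (∀ T₂ T₃ : E → E, Measurable T₂ → Measurable T₃ →
          (measOfDensity ρ).map T₂ = measOfDensity ρ → (measOfDensity ρ).map T₃ = measOfDensity ρ →
          ∫⁻ p, tripleCost s p ∂π₀ < ∫⁻ x, tripleCost s (x, T₂ x, T₃ x) ∂(measOfDensity ρ)) ∧
        (∀ ε : ℝ≥0∞, 0 < ε → ∃ T₂ T₃ : E → E, Measurable T₂ ∧ Measurable T₃ ∧
          (measOfDensity ρ).map T₂ = measOfDensity ρ ∧ (measOfDensity ρ).map T₃ = measOfDensity ρ ∧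
          ∫⁻ x, tripleCost s (x, T₂ x, T₃ x) ∂(measOfDensity ρ) < ∫⁻ p, tripleCost s p ∂π₀ + ε) := by
  have : Nontrivial E := ⟨⟨e false, 0, fun h => by have := he false; rw [h] at this; simp at this⟩⟩
  obtain ⟨φ, v, r, hr, hφz, hφ1, hφ2, hφK, hvc, hsep, H1, H1', H2⟩ := global_main hs he ho
  obtain ⟨f, hf, hf0, hfK, hf1⟩ := exists_bump (E := E) hr
  have hK : IsCompact (closedBall (0 : E) r) := isCompact_closedBall 0 r
  have hKm : MeasurableSet (closedBall (0 : E) r) := hK.measurableSet
  choose g hg hg0 hgs hgm using fun i =>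
    exists_density (volume : Measure E) (φ i) (hφ1 i) (hφ2 i) hK (hφK i) hf hf0 hfK
  set ν : Measure (closedBall (0 : E) r) :=
    (volume.withDensity (fun x => ENNReal.ofReal (f x ^ 2))).comap Subtype.val with hν
  have hνp : IsProbabilityMeasure ν := by
    constructor
    rw [hν, (MeasurableEmbedding.subtype_coe hKm).comap_apply, image_univ, Subtype.range_coe,
      withDensity_apply _ hKm, setLIntegral_eq_of_support_subset, hf1]
    intro x hx
    refine hfK fun h => hx ?_
    simp [h]
  have hν0 : ∀ x, ν {x} = 0 := fun x => by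
    rw [hν, (MeasurableEmbedding.subtype_coe hKm).comap_apply, image_singleton]
    exact withDensity_absolutelyContinuous _ _ (measure_singleton _)
  have hne : Nonempty (closedBall (0 : E) r) := ⟨⟨0, mem_closedBall_self hr.le⟩⟩
  have hφc : ∀ i, Continuous (fun x : closedBall (0 : E) r => φ i x) := fun i =>
    continuousOn_iff_continuous_domRestrict.1 ((φ i).continuousOn.mono (hφK i))
  have hvc' : ∀ i, Continuous (fun x : closedBall (0 : E) r => v i x) := fun i =>
    continuousOn_iff_continuous_domRestrict.1 (hvc i)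
  obtain ⟨Φ, hΦ⟩ : ∃ Φ : Lab × closedBall (0 : E) r → E, ∀ i x, Φ (i, x) = φ i x :=
    ⟨fun y => φ y.1 y.2, fun _ _ => rfl⟩
  have hΦm : Measurable Φ := measurable_from_prod_countable_right fun i => by
    simp only [hΦ]; exact (hφc i).measurable
  have hΦi : Injective Φ := by
    rintro ⟨i, x⟩ ⟨j, y⟩ h
    rw [hΦ, hΦ] at h
    by_cases hij : i = j
    · subst hij
      rw [Subtype.ext ((φ i).injOn (hφK i x.2) (hφK i y.2) h)]
    · exact absurd h (hsep i j hij x x.2 y y.2)
  have hΦe : MeasurableEmbedding Φ := hΦm.measurableEmbedding hΦi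
  obtain ⟨V, hV⟩ : ∃ V : Lab × closedBall (0 : E) r → ℝ≥0∞,
      ∀ i x, V (i, x) = ENNReal.ofReal (v i x) :=
    ⟨fun y => ENNReal.ofReal (v y.1 y.2), fun _ _ => rfl⟩
  have hVm : Measurable V := measurable_from_prod_countable_right fun i => by
    simp only [hV]; exact (hvc' i).measurable.ennreal_ofReal
  have hVfin : ∫⁻ y, V y ∂parMeas ν ≠ ⊤ := by
    have : ∀ i, ∫⁻ x, V (i, x) ∂ν ≠ ⊤ := fun i => by
      simp only [hV]
      exact (((hvc' i).integrable_of_hasCompactSupport
        (HasCompactSupport.of_compactSpace _)).lintegral_lt_top).ne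
    rw [lintegral_parMeas ν hVm]
    refine ENNReal.mul_ne_top (by simp) ?_
    simp [Fintype.sum_bool, this]
  -- the density
  have hprod : ∀ i j, i ≠ j → ∀ x, g i x * g j x = 0 := by
    intro i j hij x
    by_contra h
    obtain ⟨a, ha, ha'⟩ := hgs i (left_ne_zero_of_mul h)
    obtain ⟨b, hb, hb'⟩ := hgs j (right_ne_zero_of_mul h)
    exact hsep i j hij a ha b hb (ha'.trans hb'.symm)
  set G : E → ℝ := fun x => Real.sqrt (1 / 3) * g Lab.z x + Real.sqrt (1 / 6) *
    (g (Lab.o true false) x + g (Lab.o true true) x + g (Lab.o false false) x +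
      g (Lab.o false true) x) with hG
  have hGs : ContDiff ℝ ∞ G :=
    (contDiff_const.mul (hg _)).add (contDiff_const.mul
      ((((hg _).add (hg _)).add (hg _)).add (hg _)))
  have hG0 : ∀ x, 0 ≤ G x := fun x => by
    have := hg0 Lab.z x
    have := hg0 (Lab.o true false) x
    have := hg0 (Lab.o true true) x
    have := hg0 (Lab.o false false) x
    have := hg0 (Lab.o false true) x
    simp only [hG]; positivity
  have hGsq : ∀ x, G x ^ 2 = 6⁻¹ * ((g Lab.z x ^ 2 + g (Lab.o true false) x ^ 2 +
      g (Lab.o true true) x ^ 2) + (g Lab.z x ^ 2 + g (Lab.o false false) x ^ 2 +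
      g (Lab.o false true) x ^ 2)) := by
    intro x
    have a3 : Real.sqrt (1 / 3) ^ 2 = 1 / 3 := Real.sq_sqrt (by norm_num)
    have a6 : Real.sqrt (1 / 6) ^ 2 = 1 / 6 := Real.sq_sqrt (by norm_num)
    have p1 := hprod Lab.z (Lab.o true false) (by simp) x
    have p2 := hprod Lab.z (Lab.o true true) (by simp) x
    have p3 := hprod Lab.z (Lab.o false false) (by simp) x
    have p4 := hprod Lab.z (Lab.o false true) (by simp) x
    have p5 := hprod (Lab.o true false) (Lab.o true true) (by simp) x
    have p6 := hprod (Lab.o true false) (Lab.o false false) (by simp) x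
    have p7 := hprod (Lab.o true false) (Lab.o false true) (by simp) x
    have p8 := hprod (Lab.o true true) (Lab.o false false) (by simp) x
    have p9 := hprod (Lab.o true true) (Lab.o false true) (by simp) x
    have p10 := hprod (Lab.o false false) (Lab.o false true) (by simp) x
    simp only [hG]
    generalize Real.sqrt (1 / 3) = a at a3
    generalize Real.sqrt (1 / 6) = b at a6
    generalize g Lab.z x = t0 at *
    generalize g (Lab.o true false) x = t1 at *
    generalize g (Lab.o true true) x = t2 at *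
    generalize g (Lab.o false false) x = t3 at *
    generalize g (Lab.o false true) x = t4 at *
    linear_combination t0 ^ 2 * a3 + (t1 ^ 2 + t2 ^ 2 + t3 ^ 2 + t4 ^ 2) * a6 +
      2 * a * b * (p1 + p2 + p3 + p4) + 2 * b ^ 2 * (p5 + p6 + p7 + p8 + p9 + p10)
  have hμ : measOfDensity (fun x => G x ^ 2) = (parMeas ν).map Φ := by
    rw [map_parMeas ν hΦm]
    simp only [hΦ, Fintype.sum_bool, ← hgm]
    have hm : ∀ i, Measurable (fun x => ENNReal.ofReal (g i x ^ 2)) := fun i =>
      ((hg i).continuous.pow 2).measurable.ennreal_ofReal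
    rw [← withDensity_add_left (hm _), ← withDensity_add_left ((hm _).add (hm _)),
      ← withDensity_add_left (hm _), ← withDensity_add_left ((hm _).add (hm _)),
      ← withDensity_add_left (((hm _).add (hm _)).add (hm _)),
      ← withDensity_smul' _ _ (by simp), measOfDensity]
    congr 1
    ext x
    simp only [Pi.smul_apply, Pi.add_apply, smul_eq_mul]
    rw [hGsq, ENNReal.ofReal_mul (by norm_num), ENNReal.ofReal_inv_of_pos (by norm_num),
      ENNReal.ofReal_add (by positivity) (by positivity),
      ENNReal.ofReal_add (by positivity) (by positivity),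
      ENNReal.ofReal_add (by positivity) (by positivity),
      ENNReal.ofReal_add (by positivity) (by positivity),
      ENNReal.ofReal_add (by positivity) (by positivity)]
    simp
  have hcs : HasCompactSupport G := by
    have hc : ∀ i, HasCompactSupport (g i) := fun i =>
      HasCompactSupport.of_support_subset_isCompact
        (hK.image_of_continuousOn ((φ i).continuousOn.mono (hφK i))) (hgs i)
    exact ((hc _).mul_left).add (((((hc _).add (hc _)).add (hc _)).add (hc _)).mul_left)
  refine ⟨fun x => G x ^ 2, fun x => sq_nonneg _, hGs.pow 2,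
    hcs.comp_left (g := fun t : ℝ => t ^ 2) (by simp), ?_, ?_, ?_⟩
  · simpa only [Real.sqrt_sq (hG0 _)] using hGs
  · rw [integral_eq_lintegral_of_nonneg_ae (Eventually.of_forall fun x => sq_nonneg _)
      (hGs.continuous.pow 2).aestronglyMeasurable]
    have : ∫⁻ x, ENNReal.ofReal (G x ^ 2) = measOfDensity (fun x => G x ^ 2) univ := by
      rw [measOfDensity, withDensity_apply _ MeasurableSet.univ, Measure.restrict_univ]
    rw [this, hμ, Measure.map_apply hΦm MeasurableSet.univ, preimage_univ, ← lintegral_one,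
      lintegral_parMeas ν measurable_const]
    simp only [lintegral_one, measure_univ, Fintype.sum_bool]
    rw [show (1 + 1 + 1 + (1 + 1 + 1) : ℝ≥0∞) = 6 by norm_num,
      ENNReal.inv_mul_cancel (by simp) (by simp), ENNReal.toReal_one]
  · refine abstract_main ν hΦe (continuous_tripleCost s).measurable (tripleCost_cyc s) hVm hVfin
      ?_ ?_ ?_ ?_ _ hμ
    · rintro ⟨i, x⟩ ⟨j, y⟩ ⟨l, w⟩
      simp only [hΦ, hV]
      exact H1 i j l x x.2 y y.2 w w.2
    · rintro x ⟨j, y⟩ ⟨l, w⟩ h
      simp only [hΦ, hV] at h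
      obtain ⟨a, b⟩ := H1' j l x x.2 y y.2 w w.2 h
      exact ⟨a, Subtype.ext b⟩
    · intro k x
      simp only [hΦ, hV]
      exact H2 k x x.2
    · intro δ hδ
      have hhc : ∀ {X : Type _} [TopologicalSpace X] {a b : X → E}, Continuous a → Continuous b →
          (∀ x, a x ≠ b x) → Continuous (fun x => hh s (a x - b x)) := by
        intro X _ a b ha hb hab
        exact (ha.sub hb).norm.rpow_const fun x => Or.inl (norm_ne_zero_iff.2 (sub_ne_zero.2 (hab x)))
      have hF : ∀ k, Continuous (fun q : closedBall (0 : E) r × closedBall (0 : E) r =>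
          cR s (φ Lab.z q.1) (φ (Lab.o k false) q.2) (φ (Lab.o k true) q.2)) := fun k =>
        ((hhc ((hφc _).comp continuous_fst) ((hφc _).comp continuous_snd)
          fun q => hsep Lab.z (Lab.o k false) (by simp) _ q.1.2 _ q.2.2).add
        (hhc ((hφc _).comp continuous_fst) ((hφc _).comp continuous_snd)
          fun q => hsep Lab.z (Lab.o k true) (by simp) _ q.1.2 _ q.2.2)).add
        (hhc ((hφc _).comp continuous_snd) ((hφc _).comp continuous_snd)
          fun q => hsep (Lab.o k false) (Lab.o k true) (by simp) _ q.2.2 _ q.2.2)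
      choose η hη hηF using fun k => Metric.uniformContinuous_iff.1
        (CompactSpace.uniformContinuous_of_continuous (hF k)) δ hδ
      have hη0 : 0 < min (η false) (η true) / 2 := half_pos (lt_min (hη _) (hη _))
      obtain ⟨S, hS, hSm, hSd⟩ := exists_split ν hν0 (halfMeas ν) (halfMeas_snd ν) hη0
      refine ⟨S, hS, hSm, ?_⟩
      filter_upwards [hSd] with x hx
      generalize S x = q at hx ⊢
      obtain ⟨k, y⟩ := q
      simp only [hΦ] at hx ⊢
      have hk : min (η false) (η true) ≤ η k := by
        cases k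
        · exact min_le_left _ _
        · exact min_le_right _ _
      have hd : dist (x, y) (y, y) < η k := by
        rw [Prod.dist_eq, dist_self, dist_comm, max_lt_iff]
        exact ⟨by linarith, hη k⟩
      have h1 := hηF k hd
      rw [Real.dist_eq, abs_lt] at h1
      rw [tripleCost_eq_ofReal s (hsep Lab.z (Lab.o k false) (by simp) _ x.2 _ y.2)
          (hsep Lab.z (Lab.o k true) (by simp) _ x.2 _ y.2)
          (hsep (Lab.o k false) (Lab.o k true) (by simp) _ y.2 _ y.2),
        tripleCost_eq_ofReal s (hsep Lab.z (Lab.o k false) (by simp) _ y.2 _ y.2)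
          (hsep Lab.z (Lab.o k true) (by simp) _ y.2 _ y.2)
          (hsep (Lab.o k false) (Lab.o k true) (by simp) _ y.2 _ y.2),
        ← ENNReal.ofReal_coe_nnreal]
      refine le_trans (ENNReal.ofReal_le_ofReal ?_) ENNReal.ofReal_add_le
      linarith [h1.2]

end Crest.Agent.R130
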